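import Vale.Agent.P067A.SmallSet

/-!
# P067: from small locally minimal cocycles to cosystolic expansion
-/

set_option linter.unusedSectionVars false

namespace Vale.Agent.P067A

open Finset

variable {V : Type*} [Fintype V] [DecidableEq V]

/-- the norm of a localisation as a sum over the faces containing `s` -/
theorem nrm_lk_eq (T : Finset (Finset V)) {k : ℕ} {s : Finset V} (hs : s.card ≤ k)
    (f : Finset V → ZMod 2) :
    nrm (lk T s) (k - s.card) (loc f s) =
      ∑ r ∈ powersetCard k (univ : Finset V),
        if s ⊆ r then (if f r ≠ 0 then Wt T r else 0) else 0 := by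
  unfold nrm
  rw [← sum_filter_add_sum_filter_not _ (fun t => Disjoint t s)]
  have h0 : ∑ t ∈ (powersetCard (k - s.card) (univ : Finset V)).filter (fun t => ¬ Disjoint t s),
      (if loc f s t ≠ 0 then Wt (lk T s) t else 0) = 0 := by
    refine sum_eq_zero fun t ht => ?_
    rw [mem_filter] at ht
    rw [Wt_lk, if_neg ht.2]
    simp
  rw [h0, add_zero, ← sum_filter (fun r => s ⊆ r)]
  refine sum_bij' (fun t _ => s ∪ t) (fun r _ => r \ s) ?_ ?_ ?_ ?_ ?_
  · intro t ht
    rw [mem_filter, mem_powersetCard_univ] at ht
    rw [mem_filter, mem_powersetCard_univ]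
    refine ⟨?_, subset_union_left⟩
    rw [card_union_of_disjoint ht.2.symm, ht.1]
    omega
  · intro r hr
    rw [mem_filter, mem_powersetCard_univ] at hr
    rw [mem_filter, mem_powersetCard_univ]
    exact ⟨by rw [card_sdiff_of_subset hr.2, hr.1], disjoint_sdiff_self_left⟩
  · intro t ht
    rw [mem_filter] at ht
    simp only [union_sdiff_left]
    exact sdiff_eq_self_of_disjoint ht.2
  · intro r hr
    rw [mem_filter] at hr
    exact union_sdiff_of_subset hr.2
  · intro t ht
    rw [mem_filter] at ht
    rw [Wt_lk, if_pos ht.2]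
    rfl

theorem cob_cob (f : Finset V → ZMod 2) (r : Finset V) : cob (cob f) r = 0 := by
  unfold cob
  have h1 : ∑ x ∈ r, ∑ y ∈ r.erase x, f ((r.erase x).erase y) =
      ∑ p ∈ r.offDiag, f ((r.erase p.1).erase p.2) := by
    rw [sum_sigma']
    refine sum_bij' (fun p _ => (p.1, p.2)) (fun p _ => ⟨p.1, p.2⟩) ?_ ?_ ?_ ?_ ?_
    · rintro ⟨x, y⟩ h
      simp only [mem_sigma, mem_erase] at h
      simp only [mem_offDiag]
      exact ⟨h.1, h.2.2, fun e => h.2.1 e.symm⟩
    · rintro ⟨x, y⟩ h
      simp only [mem_offDiag] at h
      simp only [mem_sigma, mem_erase]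
      exact ⟨h.1, fun e => h.2.2 e.symm, h.2.1⟩
    · rintro ⟨x, y⟩ _; rfl
    · rintro ⟨x, y⟩ _; rfl
    · rintro ⟨x, y⟩ _; rfl
  rw [h1]
  refine sum_involution (fun p _ => (p.2, p.1)) ?_ ?_ ?_ ?_
  · rintro ⟨x, y⟩ _
    simp only
    rw [erase_right_comm]
    exact CharTwo.add_self_eq_zero _
  · rintro ⟨x, y⟩ h _ heq
    simp only [mem_offDiag] at h
    exact h.2.2 (Prod.mk.inj heq).2
  · rintro ⟨x, y⟩ h
    simp only [mem_offDiag] at h ⊢
    exact ⟨h.2.1, h.1, fun e => h.2.2 e.symm⟩
  · rintro ⟨x, y⟩ _
    rfl

theorem cob_add (f g : Finset V → ZMod 2) (r : Finset V) :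
    cob (fun s => f s + g s) r = cob f r + cob g r := by
  unfold cob; rw [← sum_add_distrib]

/-- extension of a cochain of the link -/
def ext (s : Finset V) (h : Finset V → ZMod 2) (r : Finset V) : ZMod 2 :=
  if s ⊆ r then h (r \ s) else 0

theorem cob_ext (s : Finset V) (h : Finset V → ZMod 2) (r : Finset V) :
    cob (ext s h) r = ext s (cob h) r := by
  unfold cob ext
  split_ifs with hs
  · have h1 : ∑ x ∈ r, (if s ⊆ r.erase x then h (r.erase x \ s) else 0) =
        ∑ x ∈ r \ s, h ((r \ s).erase x) := by
      rw [← sum_subset (sdiff_subset : r \ s ⊆ r)]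
      · refine sum_congr rfl fun x hx => ?_
        rw [mem_sdiff] at hx
        rw [if_pos, erase_sdiff_comm]
        exact subset_erase.2 ⟨hs, hx.2⟩
      · intro x hxr hx
        rw [if_neg]
        intro h2
        rw [mem_sdiff] at hx
        push Not at hx
        exact (subset_erase.1 h2).2 (hx hxr)
    exact h1
  · refine sum_eq_zero fun x _ => ?_
    rw [if_neg]
    exact fun h2 => hs (h2.trans (erase_subset _ _))

/-- **Cleaning.** -/
theorem clean (T : Finset (Finset V)) (k R : ℕ)
    (hR : ∀ s : Finset V, s.Nonempty →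
      ∑ r ∈ powersetCard (k - 1) (univ : Finset V), (if s ⊆ r then Wt T r else 0) ≤ R) :
    ∀ (N : ℕ) (g : Finset V → ZMod 2), nrm T k g = N → ∃ h : Finset V → ZMod 2,
      LMin T k (fun r => g r + cob h r) ∧ nrm T k (fun r => g r + cob h r) ≤ nrm T k g ∧
      nrm T (k - 1) h ≤ R * nrm T k g := by
  intro N
  induction N using Nat.strong_induction_on with
  | _ N ih =>
    intro g hg
    by_cases hm : LMin T k g
    · refine ⟨fun _ => 0, ?_, ?_, ?_⟩
      · have : (fun r => g r + cob (fun _ => 0) r) = g := by
          funext r; simp [cob]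
        rw [this]; exact hm
      · have : (fun r => g r + cob (fun _ => 0) r) = g := by
          funext r; simp [cob]
        rw [this]
      · have : nrm T (k - 1) (fun _ => 0) = 0 := by
          unfold nrm; simp
        rw [this]; exact Nat.zero_le _
    · unfold LMin at hm
      push Not at hm
      obtain ⟨s, hs, hsk, h', hh⟩ := hm
      -- the new cochain
      set e : Finset V → ZMod 2 := ext s h' with he
      set g' : Finset V → ZMod 2 := fun r => g r + cob e r with hg'
      have hlt : nrm T k g' < nrm T k g := by
        have h1 : ∀ f : Finset V → ZMod 2, nrm T k f =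
            nrm (lk T s) (k - s.card) (loc f s) +
            ∑ r ∈ powersetCard k (univ : Finset V),
              if s ⊆ r then 0 else (if f r ≠ 0 then Wt T r else 0) := by
          intro f
          rw [nrm_lk_eq T hsk.le, ← sum_add_distrib]
          unfold nrm
          refine sum_congr rfl fun r _ => ?_
          by_cases hsr : s ⊆ r
          · simp [hsr]
          · simp [hsr]
        rw [h1 g', h1 g]
        have h2 : ∑ r ∈ powersetCard k (univ : Finset V),
              (if s ⊆ r then 0 else (if g' r ≠ 0 then Wt T r else 0)) =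
            ∑ r ∈ powersetCard k (univ : Finset V),
              if s ⊆ r then 0 else (if g r ≠ 0 then Wt T r else 0) := by
          refine sum_congr rfl fun r _ => ?_
          split_ifs with h3
          · rfl
          · have : g' r = g r := by
              simp only [hg', he]
              rw [cob_ext]
              unfold ext
              rw [if_neg h3, add_zero]
            simp_all
          · have : g' r = g r := by
              simp only [hg', he]
              rw [cob_ext]
              unfold ext
              rw [if_neg h3, add_zero]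
            simp_all
          · have : g' r = g r := by
              simp only [hg', he]
              rw [cob_ext]
              unfold ext
              rw [if_neg h3, add_zero]
            simp_all
          · rfl
        rw [h2]
        have h3 : nrm (lk T s) (k - s.card) (loc g' s) =
            nrm (lk T s) (k - s.card) (fun r => loc g s r + cob h' r) := by
          have key : ∀ t : Finset V, 0 < Wt (lk T s) t →
              loc g' s t = loc g s t + cob h' t := by
            intro t ht
            obtain ⟨hd, _⟩ := Wt_lk_pos ht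
            unfold loc
            simp only [hg', he]
            rw [cob_ext]
            unfold ext
            rw [if_pos subset_union_left, union_sdiff_left, sdiff_eq_self_of_disjoint hd]
          refine le_antisymm ?_ ?_
          · exact nrm_le_of fun r _ hw hne => by rw [← key r hw]; exact hne
          · exact nrm_le_of fun r _ hw hne => by rw [key r hw]; exact hne
        rw [h3]
        omega
      obtain ⟨h, hm1, hm2, hm3⟩ := ih (nrm T k g') (by omega) g' rfl
      have hsum : (fun r => g r + cob (fun t => e t + h t) r) = fun r => g' r + cob h r := by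
        funext r
        rw [cob_add]
        simp only [hg']
        ring
      refine ⟨fun t => e t + h t, ?_, ?_, ?_⟩
      · rw [hsum]; exact hm1
      · rw [hsum]; omega
      · have h4 : nrm T (k - 1) (fun t => e t + h t) ≤ nrm T (k - 1) e + nrm T (k - 1) h := by
          unfold nrm
          rw [← sum_add_distrib]
          refine sum_le_sum fun r _ => ?_
          by_cases h5 : e r = 0 <;> by_cases h6 : h r = 0 <;> simp [h5, h6]
          split_ifs <;> omega
        have h5 : nrm T (k - 1) e ≤ R := by
          refine le_trans ?_ (hR s hs)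
          unfold nrm
          refine sum_le_sum fun r _ => ?_
          by_cases hsr : s ⊆ r
          · rw [if_pos hsr]; split_ifs <;> omega
          · rw [if_neg hsr]
            have : e r = 0 := by
              simp only [he]
              unfold ext
              rw [if_neg hsr]
            simp [this]
        have h6 : nrm T k g' + 1 ≤ nrm T k g := hlt
        calc nrm T (k - 1) (fun t => e t + h t) ≤ R + R * nrm T k g' := by omega
          _ = R * (nrm T k g' + 1) := by ring
          _ ≤ R * nrm T k g := Nat.mul_le_mul_left _ h6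

/-- the cohomology vanishes on faces with `i` elements -/
def Van (T : Finset (Finset V)) (i : ℕ) : Prop :=
  ∀ f : Finset V → ZMod 2, Cocy T i f → ∃ b : Finset V → ZMod 2,
    ∀ r, r.card = i → 0 < Wt T r → f r = cob b r

/-- total weight of a level -/
theorem nrm_le_total {D : ℕ} {T : Finset (Finset V)} (hT : Pure D T) (i : ℕ)
    (f : Finset V → ZMod 2) : nrm T i f ≤ 2 ^ (D + 1) * T.card := by
  have h1 : nrm T i f ≤ ∑ r ∈ (univ : Finset (Finset V)), Wt T r := by
    unfold nrm
    calc _ ≤ ∑ r ∈ powersetCard i (univ : Finset V), Wt T r :=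
          sum_le_sum fun r _ => by split_ifs <;> omega
      _ ≤ _ := sum_le_sum_of_subset (subset_univ _)
  refine h1.trans ?_
  unfold Wt
  simp only [card_filter]
  rw [sum_comm]
  calc ∑ t ∈ T, ∑ r : Finset V, (if r ⊆ t then 1 else 0) = ∑ t ∈ T, 2 ^ (D + 1) := by
        refine sum_congr rfl fun t ht => ?_
        rw [← card_filter]
        have : (univ.filter fun r => r ⊆ t) = t.powerset := by ext; simp
        rw [this, card_powerset, hT t ht]
    _ ≤ 2 ^ (D + 1) * T.card := by rw [sum_const, smul_eq_mul, mul_comm]

/-- the total weight of the faces containing `s` -/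
theorem sum_sup_le {D : ℕ} {T : Finset (Finset V)} (hT : Pure D T) (i : ℕ) (s : Finset V) :
    ∑ r ∈ powersetCard i (univ : Finset V), (if s ⊆ r then Wt T r else 0) ≤
      2 ^ (D + 1) * Wt T s := by
  have h1 : ∑ r ∈ powersetCard i (univ : Finset V), (if s ⊆ r then Wt T r else 0) ≤
      ∑ r ∈ (univ : Finset (Finset V)), ∑ t ∈ T, (if s ⊆ t then (if r ⊆ t then 1 else 0) else 0) := by
    calc _ ≤ ∑ r ∈ powersetCard i (univ : Finset V),
          ∑ t ∈ T, (if s ⊆ t then (if r ⊆ t then 1 else 0) else 0) := by
          refine sum_le_sum fun r _ => ?_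
          split_ifs with h
          · unfold Wt
            rw [card_filter]
            refine sum_le_sum fun t _ => ?_
            by_cases h2 : r ⊆ t
            · rw [if_pos h2, if_pos (h.trans h2)]
            · rw [if_neg h2]; exact Nat.zero_le _
          · exact Nat.zero_le _
      _ ≤ _ := sum_le_sum_of_subset (subset_univ _)
  refine h1.trans ?_
  rw [sum_comm]
  have h2 : ∀ t ∈ T, ∑ r : Finset V, (if s ⊆ t then (if r ⊆ t then 1 else 0) else 0) =
      if s ⊆ t then 2 ^ (D + 1) else 0 := by
    intro t ht
    split_ifs with h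
    · rw [← card_filter]
      have : (univ.filter fun r => r ⊆ t) = t.powerset := by ext; simp
      rw [this, card_powerset, hT t ht]
    · simp
  rw [sum_congr rfl h2, ← sum_filter, sum_const, smul_eq_mul, mul_comm]
  rfl

/-- **Expansion at the level of faces with `i` elements.** -/
theorem expand {T : Finset (Finset V)} {D i Q : ℕ} (hT : Pure D T) (hi : 0 < i) (hiD : i + 1 ≤ D)
    (hQ : ∀ s : Finset V, s.Nonempty → Wt T s ≤ Q)
    {β C lam μ : ℝ} (hβ : 0 < β) (hC : 0 ≤ C) (hlam : 0 ≤ lam)
    (hce : ∀ s : Finset V, s.Nonempty → s.card < i + 1 → CE (lk T s) (i + 1 - s.card) β)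
    (hsp : ∀ s : Finset V, s.card < i + 1 → SP (lk T s) (i + 1 - s.card) C lam)
    (hμ0 : 0 < μ) (hc : C * (KK β C (i + 1) i * (μ + lam ^ 2)) + lam * 2 ^ (i + 1) < 1)
    (hv : Van T i) (f : Finset V → ZMod 2) :
    ∃ b : Finset V → ZMod 2, (nrm T i (fun r => f r + cob b r) : ℝ) ≤
      (2 ^ (D + 1) * Q + 2 ^ (D + 1) / μ) * nrm T (i + 1) (cob f) := by
  have hN : (0 : ℝ) ≤ nrm T (i + 1) (cob f) := Nat.cast_nonneg _
  by_cases hsmall : (nrm T (i + 1) (cob f) : ℝ) ≤ μ * T.card
  · obtain ⟨h, h1, h2, h3⟩ := clean T (i + 1) (2 ^ (D + 1) * Q) (fun s hs => by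
      refine (sum_sup_le hT i s).trans ?_
      exact Nat.mul_le_mul_left _ (hQ s hs)) _ (cob f) rfl
    have hcoc : Cocy T (i + 1) (fun r => cob f r + cob h r) := by
      intro r _ _
      rw [cob_add, cob_cob, cob_cob, add_zero]
    have h4 := small_set hT (k := i + 1) (by omega) hiD hcoc h1 hβ hC hlam hce hsp hμ0.le
      (by
        refine le_trans ?_ hsmall
        exact_mod_cast h2) hc
    have h5 : Cocy T i (fun r => f r + h r) := by
      intro r hr hw
      rw [cob_add]
      by_contra hne
      have h6 : nrm T (i + 1) (fun r => cob f r + cob h r) ≠ 0 := by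
        unfold nrm
        rw [Ne, sum_eq_zero_iff]
        intro h7
        have h8 := h7 r (mem_powersetCard_univ.2 hr)
        rw [if_pos hne] at h8
        omega
      exact h6 h4
    obtain ⟨b, hb⟩ := hv _ h5
    refine ⟨b, ?_⟩
    have h6 : nrm T i (fun r => f r + cob b r) ≤ nrm T i h := by
      refine nrm_le_of fun r hr hw hne => ?_
      have h7 := hb r hr hw
      intro h8
      apply hne
      rw [← h7, h8, add_zero]
      exact CharTwo.add_self_eq_zero _
    have h7 : (nrm T i (fun r => f r + cob b r) : ℝ) ≤
        (2 ^ (D + 1) * Q) * nrm T (i + 1) (cob f) := by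
      have h8 : nrm T i (fun r => f r + cob b r) ≤ (2 ^ (D + 1) * Q) * nrm T (i + 1) (cob f) :=
        h6.trans h3
      exact_mod_cast h8
    have h8 : 0 ≤ (2 : ℝ) ^ (D + 1) / μ * nrm T (i + 1) (cob f) := by positivity
    rw [add_mul]
    linarith
  · refine ⟨fun _ => 0, ?_⟩
    push Not at hsmall
    have e : (fun r => f r + cob (fun _ => (0 : ZMod 2)) r) = f := by
      funext r; simp [cob]
    rw [e]
    have h1 : (nrm T i f : ℝ) ≤ 2 ^ (D + 1) * T.card := by
      exact_mod_cast nrm_le_total hT i f
    have h2 : (2 : ℝ) ^ (D + 1) * T.card ≤ 2 ^ (D + 1) / μ * nrm T (i + 1) (cob f) := by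
      have h3 := mul_le_mul_of_nonneg_left hsmall.le (by positivity : 0 ≤ (2 : ℝ) ^ (D + 1) / μ)
      have e2 : (2 : ℝ) ^ (D + 1) / μ * (μ * T.card) = 2 ^ (D + 1) * T.card := by field_simp
      rw [e2] at h3
      exact h3
    have h3 : 0 ≤ (2 : ℝ) ^ (D + 1) * Q * nrm T (i + 1) (cob f) := by positivity
    rw [add_mul]
    linarith

end Vale.Agent.P067A
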