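import Vale.Agent.P067A.Wt

/-!
# P067: small locally minimal cocycles vanish
-/

set_option linter.unusedSectionVars false

namespace Vale.Agent.P067A

open Finset

variable {V : Type*} [Fintype V] [DecidableEq V]

/-- coboundary expansion (not normalised) for cochains on faces with `m` elements -/
def CE (T : Finset (Finset V)) (m : ℕ) (β : ℝ) : Prop :=
  ∀ f : Finset V → ZMod 2, ∃ h : Finset V → ZMod 2,
    β * nrm T m (fun r => f r + cob h r) ≤ nrm T (m + 1) (cob f)

/-- the second moment of the localisations at vertices -/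
noncomputable def sq1 (T : Finset (Finset V)) (m : ℕ) (f : Finset V → ZMod 2) : ℝ :=
  ∑ x, (nrm (lk T {x}) (m - 1) (loc f {x}) : ℝ) ^ 2 / Wt T {x}

/-- the correlation of a set of faces in `x` and around `x` -/
noncomputable def cor (T : Finset (Finset V)) (m : ℕ) (f : Finset V → ZMod 2) : ℝ :=
  ∑ x, (nrm (lk T {x}) (m - 1) (loc f {x}) : ℝ) * nrm (lk T {x}) m f / Wt T {x}

/-- the spectral hypothesis for sets of faces with `m` elements -/
def SP (T : Finset (Finset V)) (m : ℕ) (C lam : ℝ) : Prop :=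
  ∀ f : Finset V → ZMod 2,
    cor T m f ≤ C * ((nrm T m f : ℝ) ^ 2 / T.card) +
      lam * (Real.sqrt (nrm T m f) * Real.sqrt (sq1 T m f))

/-- locally minimal cochains on faces with `k` elements -/
def LMin (T : Finset (Finset V)) (k : ℕ) (f : Finset V → ZMod 2) : Prop :=
  ∀ s : Finset V, s.Nonempty → s.card < k → ∀ h : Finset V → ZMod 2,
    nrm (lk T s) (k - s.card) (loc f s) ≤
      nrm (lk T s) (k - s.card) (fun r => loc f s r + cob h r)

/-- cocycles on faces with `k` elements -/
def Cocy (T : Finset (Finset V)) (k : ℕ) (f : Finset V → ZMod 2) : Prop :=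
  ∀ r, r.card = k + 1 → 0 < Wt T r → cob f r = 0

/-- the second moment of the localisations at faces with `j` elements -/
noncomputable def Aj (T : Finset (Finset V)) (k j : ℕ) (f : Finset V → ZMod 2) : ℝ :=
  ∑ s ∈ powersetCard j (univ : Finset V),
    (nrm (lk T s) (k - j) (loc f s) : ℝ) ^ 2 / Wt T s

theorem Wt_lk_pos {T : Finset (Finset V)} {s t : Finset V} (h : 0 < Wt (lk T s) t) :
    Disjoint t s ∧ 0 < Wt T (s ∪ t) := by
  rw [Wt_lk] at h
  split_ifs at h with h1
  · exact ⟨h1, h⟩
  · omega

/-- norms only see the faces of positive weight -/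
theorem nrm_le_of {T : Finset (Finset V)} {k : ℕ} {f g : Finset V → ZMod 2}
    (h : ∀ r, r.card = k → 0 < Wt T r → f r ≠ 0 → g r ≠ 0) : nrm T k f ≤ nrm T k g := by
  unfold nrm
  refine sum_le_sum fun r hr => ?_
  rw [mem_powersetCard_univ] at hr
  by_cases hw : Wt T r = 0
  · simp [hw]
  · by_cases hf : f r = 0
    · simp [hf]
    · rw [if_pos hf, if_pos (h r hr (Nat.pos_of_ne_zero hw) hf)]

theorem nrm_sum_le {T : Finset (Finset V)} {k : ℕ} {ι : Type*} (I : Finset ι)
    {f : Finset V → ZMod 2} {g : ι → Finset V → ZMod 2}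
    (h : ∀ r, r.card = k → 0 < Wt T r → f r ≠ 0 → ∃ i ∈ I, g i r ≠ 0) :
    nrm T k f ≤ ∑ i ∈ I, nrm T k (g i) := by
  unfold nrm
  rw [sum_comm]
  refine sum_le_sum fun r hr => ?_
  rw [mem_powersetCard_univ] at hr
  by_cases hw : Wt T r = 0
  · simp [hw]
  · by_cases hf : f r = 0
    · simp [hf]
    · obtain ⟨i, hi, hg⟩ := h r hr (Nat.pos_of_ne_zero hw) hf
      rw [if_pos hf]
      calc Wt T r = if g i r ≠ 0 then Wt T r else 0 := by rw [if_pos hg]
        _ ≤ _ := single_le_sum (f := fun i => if g i r ≠ 0 then Wt T r else 0)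
          (fun _ _ => Nat.zero_le _) hi

/-- the coboundary of a localisation of a cocycle -/
theorem cob_loc {T : Finset (Finset V)} {k : ℕ} {f : Finset V → ZMod 2} (hf : Cocy T k f)
    {s t : Finset V} (hd : Disjoint t s) (hc : s.card + t.card = k + 1)
    (hw : 0 < Wt T (s ∪ t)) : cob (loc f s) t = ∑ x ∈ s, f ((s.erase x) ∪ t) := by
  have h1 := hf (s ∪ t) (by rw [card_union_of_disjoint hd.symm, hc]) hw
  unfold cob at h1
  rw [sum_union hd.symm] at h1
  have e1 : ∑ x ∈ s, f ((s ∪ t).erase x) = ∑ x ∈ s, f (s.erase x ∪ t) := by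
    refine sum_congr rfl fun x hx => ?_
    congr 1
    have hxt : x ∉ t := fun h => (disjoint_left.1 hd) h hx
    rw [erase_union_distrib, erase_eq_of_notMem hxt]
  have e2 : ∑ x ∈ t, f ((s ∪ t).erase x) = cob (loc f s) t := by
    unfold cob loc
    refine sum_congr rfl fun x hx => ?_
    congr 1
    have hxs : x ∉ s := (disjoint_left.1 hd) hx
    rw [erase_union_distrib, erase_eq_of_notMem hxs]
  rw [e1, e2] at h1
  have h2 := eq_neg_of_add_eq_zero_right h1
  rw [h2]
  exact CharTwo.neg_eq _

/-- the basic inequality at a face `s` -/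
theorem local_ineq {T : Finset (Finset V)} {k : ℕ} {f : Finset V → ZMod 2} (hf : Cocy T k f)
    (hm : LMin T k f) {β : ℝ} (hβ : 0 ≤ β) {s : Finset V} (hs : s.Nonempty) (hk : s.card < k)
    (hce : CE (lk T s) (k - s.card) β) :
    β * nrm (lk T s) (k - s.card) (loc f s) ≤
      ∑ x ∈ s, (nrm (lk T s) (k - s.card + 1) (loc f (s.erase x)) : ℝ) := by
  obtain ⟨h, hh⟩ := hce (loc f s)
  have h1 := hm s hs hk h
  have h2 : β * nrm (lk T s) (k - s.card) (loc f s) ≤
      nrm (lk T s) (k - s.card + 1) (cob (loc f s)) := by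
    refine le_trans ?_ hh
    exact mul_le_mul_of_nonneg_left (by exact_mod_cast h1) hβ
  refine h2.trans ?_
  have h3 : nrm (lk T s) (k - s.card + 1) (cob (loc f s)) ≤
      ∑ x ∈ s, nrm (lk T s) (k - s.card + 1) (loc f (s.erase x)) := by
    refine nrm_sum_le s fun t ht hw hne => ?_
    obtain ⟨hd, hw'⟩ := Wt_lk_pos hw
    rw [cob_loc hf hd (by omega) hw'] at hne
    by_contra hcon
    push Not at hcon
    exact hne (sum_eq_zero fun x hx => hcon x hx)
  exact_mod_cast h3

/-- localised norms vanish where the weight vanishes -/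
theorem nrm_lk_zero {T : Finset (Finset V)} {s : Finset V} (h : Wt T s = 0) (m : ℕ)
    (f : Finset V → ZMod 2) : nrm (lk T s) m f = 0 := by
  have : lk T s = ∅ := by rw [← card_eq_zero, lk_card, h]
  rw [this, nrm_empty]

/-- the recursion of the second moments, before the spectral hypothesis -/
theorem Aj_le_cor {T : Finset (Finset V)} {k j : ℕ} {f : Finset V → ZMod 2} (hf : Cocy T k f)
    (hm : LMin T k f) {β : ℝ} (hβ : 0 ≤ β) (hjk : j + 1 < k)
    (hce : ∀ s : Finset V, s.card = j + 1 → CE (lk T s) (k - (j + 1)) β) :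
    β * Aj T k (j + 1) f ≤
      ∑ r ∈ powersetCard j (univ : Finset V), cor (lk T r) (k - j) (loc f r) := by
  have e1 : β * Aj T k (j + 1) f ≤ ∑ s ∈ powersetCard (j + 1) (univ : Finset V),
      ∑ x ∈ s, (nrm (lk T (insert x (s.erase x))) (k - (j + 1)) (loc f (insert x (s.erase x))) : ℝ)
        * nrm (lk T (insert x (s.erase x))) (k - j) (loc f (s.erase x)) /
          Wt T (insert x (s.erase x)) := by
    unfold Aj
    rw [mul_sum]
    refine sum_le_sum fun s hs => ?_
    rw [mem_powersetCard_univ] at hs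
    have hne : s.Nonempty := card_pos.1 (by omega)
    have h1 := local_ineq hf hm hβ hne (by omega) (by rw [hs]; exact hce s hs)
    rw [hs] at h1
    have e : k - (j + 1) + 1 = k - j := by omega
    rw [e] at h1
    have h2 : ∑ x ∈ s, (nrm (lk T (insert x (s.erase x))) (k - (j + 1))
        (loc f (insert x (s.erase x))) : ℝ) *
        nrm (lk T (insert x (s.erase x))) (k - j) (loc f (s.erase x)) /
          Wt T (insert x (s.erase x)) =
        (nrm (lk T s) (k - (j + 1)) (loc f s) : ℝ) / Wt T s *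
          ∑ x ∈ s, (nrm (lk T s) (k - j) (loc f (s.erase x)) : ℝ) := by
      rw [mul_sum]
      refine sum_congr rfl fun x hx => ?_
      rw [insert_erase hx]
      ring
    rw [h2]
    have h3 : 0 ≤ (nrm (lk T s) (k - (j + 1)) (loc f s) : ℝ) / Wt T s := by positivity
    calc β * ((nrm (lk T s) (k - (j + 1)) (loc f s) : ℝ) ^ 2 / Wt T s)
        = (nrm (lk T s) (k - (j + 1)) (loc f s) : ℝ) / Wt T s *
          (β * nrm (lk T s) (k - (j + 1)) (loc f s)) := by ring
      _ ≤ _ := mul_le_mul_of_nonneg_left h1 h3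
  refine e1.trans (le_of_eq ?_)
  rw [sum_insert_pairs j fun r x => (nrm (lk T (insert x r)) (k - (j + 1)) (loc f (insert x r)) : ℝ)
    * nrm (lk T (insert x r)) (k - j) (loc f r) / Wt T (insert x r)]
  refine sum_congr rfl fun r hr => ?_
  unfold cor
  refine sum_congr rfl fun x _ => ?_
  split_ifs with hx
  · rw [lk_lk_mem T hx, nrm_empty]
    simp
  · rw [lk_lk T hx, loc_loc, Wt_lk, if_pos (by simpa using hx)]
    have : k - (j + 1) = k - j - 1 := by omega
    rw [this]
    have e : r ∪ {x} = insert x r := by ext y; simp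
    rw [e]

/-- second moments at the next level -/
theorem sum_sq1 (T : Finset (Finset V)) (k j : ℕ) (f : Finset V → ZMod 2) :
    ∑ r ∈ powersetCard j (univ : Finset V), sq1 (lk T r) (k - j) (loc f r) =
      (j + 1) * Aj T k (j + 1) f := by
  have h1 := sum_insert_pairs (V := V) j fun r x =>
    (nrm (lk T (insert x r)) (k - (j + 1)) (loc f (insert x r)) : ℝ) ^ 2 / Wt T (insert x r)
  have h2 : ∑ s ∈ powersetCard (j + 1) (univ : Finset V), ∑ x ∈ s,
      (nrm (lk T (insert x (s.erase x))) (k - (j + 1)) (loc f (insert x (s.erase x))) : ℝ) ^ 2 /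
        Wt T (insert x (s.erase x)) = (j + 1) * Aj T k (j + 1) f := by
    unfold Aj
    rw [mul_sum]
    refine sum_congr rfl fun s hs => ?_
    rw [mem_powersetCard_univ] at hs
    rw [sum_congr rfl (g := fun _ => (nrm (lk T s) (k - (j + 1)) (loc f s) : ℝ) ^ 2 / Wt T s)
      fun x hx => by rw [insert_erase hx]]
    rw [sum_const, nsmul_eq_mul, hs]
    push_cast
    ring
  rw [← h2, h1]
  refine sum_congr rfl fun r hr => ?_
  unfold sq1
  refine sum_congr rfl fun x _ => ?_
  split_ifs with hx
  · rw [lk_lk_mem T hx, nrm_empty]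
    simp
  · rw [lk_lk T hx, loc_loc, Wt_lk, if_pos (by simpa using hx)]
    have : k - (j + 1) = k - j - 1 := by omega
    rw [this]
    have e : r ∪ {x} = insert x r := by ext y; simp
    rw [e]

/-- sum of localised norms: every face with `k` elements has at most `2 ^ k` subsets -/
theorem sum_nrm_le (T : Finset (Finset V)) (k j : ℕ) (hj : j ≤ k) (f : Finset V → ZMod 2) :
    ∑ s ∈ powersetCard j (univ : Finset V), (nrm (lk T s) (k - j) (loc f s) : ℝ) ≤
      2 ^ k * nrm T k f := by
  have key : ∀ s ∈ powersetCard j (univ : Finset V),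
      nrm (lk T s) (k - j) (loc f s) ≤
        ∑ r ∈ powersetCard k (univ : Finset V), if s ⊆ r then (if f r ≠ 0 then Wt T r else 0)
          else 0 := by
    intro s hs
    rw [mem_powersetCard_univ] at hs
    unfold nrm
    rw [← sum_filter_add_sum_filter_not _ (fun t => Disjoint t s)]
    have h0 : ∑ t ∈ (powersetCard (k - j) (univ : Finset V)).filter (fun t => ¬ Disjoint t s),
        (if loc f s t ≠ 0 then Wt (lk T s) t else 0) = 0 := by
      refine sum_eq_zero fun t ht => ?_
      rw [mem_filter] at ht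
      rw [Wt_lk, if_neg ht.2]
      simp
    rw [h0, add_zero]
    have hinj : Set.InjOn (fun t => s ∪ t)
        ((powersetCard (k - j) (univ : Finset V)).filter (fun t => Disjoint t s) :
          Set (Finset V)) := by
      intro a ha b hb hab
      rw [coe_filter] at ha hb
      simp only at hab
      have h1 : (s ∪ a) \ s = a := by
        rw [union_sdiff_left]; exact sdiff_eq_self_of_disjoint ha.2
      have h2 : (s ∪ b) \ s = b := by
        rw [union_sdiff_left]; exact sdiff_eq_self_of_disjoint hb.2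
      rw [← h1, ← h2, hab]
    have e1 : ∑ t ∈ (powersetCard (k - j) (univ : Finset V)).filter (fun t => Disjoint t s),
        (if loc f s t ≠ 0 then Wt (lk T s) t else 0) =
        ∑ r ∈ ((powersetCard (k - j) (univ : Finset V)).filter (fun t => Disjoint t s)).image
          (fun t => s ∪ t), if f r ≠ 0 then Wt T r else 0 := by
      rw [sum_image hinj]
      refine sum_congr rfl fun t ht => ?_
      rw [mem_filter] at ht
      rw [Wt_lk, if_pos ht.2]
      rfl
    rw [e1, ← sum_filter (fun r => s ⊆ r)]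
    refine sum_le_sum_of_subset fun r hr => ?_
    rw [mem_image] at hr
    obtain ⟨t, ht, rfl⟩ := hr
    rw [mem_filter, mem_powersetCard_univ] at ht
    rw [mem_filter, mem_powersetCard_univ]
    refine ⟨?_, subset_union_left⟩
    rw [card_union_of_disjoint ht.2.symm, hs, ht.1]
    omega
  have h2 : ∑ s ∈ powersetCard j (univ : Finset V), nrm (lk T s) (k - j) (loc f s) ≤
      2 ^ k * nrm T k f := by
    refine (sum_le_sum key).trans ?_
    rw [sum_comm]
    unfold nrm
    rw [mul_sum]
    refine sum_le_sum fun r hr => ?_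
    rw [mem_powersetCard_univ] at hr
    rw [← sum_filter, sum_const, smul_eq_mul]
    refine Nat.mul_le_mul_right _ ?_
    calc ((powersetCard j (univ : Finset V)).filter fun s => s ⊆ r).card
        ≤ (r.powerset).card := card_le_card fun s hs => by
          rw [mem_filter] at hs
          exact mem_powerset.2 hs.2
      _ = 2 ^ k := by rw [card_powerset, hr]
  exact_mod_cast h2

theorem sqrt_cs {ι : Type*} (I : Finset ι) (a b : ι → ℝ) (ha : ∀ i, 0 ≤ a i) (hb : ∀ i, 0 ≤ b i) :
    ∑ i ∈ I, Real.sqrt (a i) * Real.sqrt (b i) ≤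
      Real.sqrt (∑ i ∈ I, a i) * Real.sqrt (∑ i ∈ I, b i) := by
  have h := sum_mul_sq_le_sq_mul_sq I (fun i => Real.sqrt (a i)) (fun i => Real.sqrt (b i))
  simp only [Real.sq_sqrt (ha _), Real.sq_sqrt (hb _)] at h
  rw [← Real.sqrt_mul (sum_nonneg fun i _ => ha i)]
  exact Real.le_sqrt_of_sq_le h

theorem sq1_nonneg (T : Finset (Finset V)) (m : ℕ) (f : Finset V → ZMod 2) : 0 ≤ sq1 T m f := by
  unfold sq1; positivity

theorem Aj_nonneg (T : Finset (Finset V)) (k j : ℕ) (f : Finset V → ZMod 2) :
    0 ≤ Aj T k j f := by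
  unfold Aj; positivity

/-- sum of the spectral hypotheses -/
theorem sum_cor_le {T : Finset (Finset V)} {k j : ℕ} {f : Finset V → ZMod 2} (hjk : j ≤ k)
    {C lam : ℝ} (hlam : 0 ≤ lam) (hsp : ∀ s : Finset V, s.card = j → SP (lk T s) (k - j) C lam) :
    ∑ r ∈ powersetCard j (univ : Finset V), cor (lk T r) (k - j) (loc f r) ≤
      C * Aj T k j f + lam * (Real.sqrt (2 ^ k * nrm T k f) *
        Real.sqrt ((j + 1) * Aj T k (j + 1) f)) := by
  have h1 : ∑ r ∈ powersetCard j (univ : Finset V), cor (lk T r) (k - j) (loc f r) ≤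
      ∑ r ∈ powersetCard j (univ : Finset V),
        (C * ((nrm (lk T r) (k - j) (loc f r) : ℝ) ^ 2 / Wt T r) +
        lam * (Real.sqrt (nrm (lk T r) (k - j) (loc f r)) *
          Real.sqrt (sq1 (lk T r) (k - j) (loc f r)))) := by
    refine sum_le_sum fun r hr => ?_
    rw [mem_powersetCard_univ] at hr
    have := hsp r hr (loc f r)
    rw [lk_card] at this
    exact this
  refine h1.trans ?_
  rw [sum_add_distrib, ← mul_sum, ← mul_sum]
  refine add_le_add le_rfl (mul_le_mul_of_nonneg_left ?_ hlam)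
  refine (sqrt_cs _ (fun r => (nrm (lk T r) (k - j) (loc f r) : ℝ)) _ (fun r => by positivity)
    (fun r => sq1_nonneg _ _ _)).trans ?_
  rw [sum_sq1]
  exact mul_le_mul_of_nonneg_right (Real.sqrt_le_sqrt (sum_nrm_le T k j hjk f))
    (Real.sqrt_nonneg _)

/-- the constants of the recursion -/
noncomputable def KK (β C : ℝ) (k : ℕ) : ℕ → ℝ
  | 0 => 1
  | j + 1 => (2 * C / β) * KK β C k j + (j + 1) * 2 ^ k / β ^ 2

theorem KK_nonneg {β C : ℝ} (hβ : 0 < β) (hC : 0 ≤ C) (k j : ℕ) : 0 ≤ KK β C k j := by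
  induction j with
  | zero => exact zero_le_one
  | succ j ih => unfold KK; positivity

/-- **All second moments are small.** -/
theorem Aj_small {T : Finset (Finset V)} {k : ℕ} {f : Finset V → ZMod 2} (hf : Cocy T k f)
    (hm : LMin T k f) {β C lam μ : ℝ} (hβ : 0 < β) (hC : 0 ≤ C) (hlam : 0 ≤ lam)
    (hce : ∀ s : Finset V, s.Nonempty → s.card < k → CE (lk T s) (k - s.card) β)
    (hsp : ∀ s : Finset V, s.card < k → SP (lk T s) (k - s.card) C lam)
    (hμ0 : 0 ≤ μ) (hμ : (nrm T k f : ℝ) ≤ μ * T.card) (j : ℕ) (hj : j < k) :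
    Aj T k j f ≤ KK β C k j * (μ + lam ^ 2) * nrm T k f := by
  have hN : (0 : ℝ) ≤ nrm T k f := Nat.cast_nonneg _
  induction j with
  | zero =>
    have e : Aj T k 0 f = (nrm T k f : ℝ) ^ 2 / T.card := by
      unfold Aj
      rw [powersetCard_zero, sum_singleton, lk_empty, loc_empty, Wt_empty]
      rfl
    rw [e]
    unfold KK
    rw [one_mul]
    rcases Nat.eq_zero_or_pos T.card with h0 | h0
    · rw [h0, Nat.cast_zero, div_zero]
      positivity
    · have h1 : (0 : ℝ) < T.card := by exact_mod_cast h0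
      rw [div_le_iff₀ h1]
      calc (nrm T k f : ℝ) ^ 2 = nrm T k f * nrm T k f := by ring
        _ ≤ (μ * T.card) * nrm T k f := mul_le_mul_of_nonneg_right hμ hN
        _ ≤ _ := by nlinarith [sq_nonneg lam, mul_nonneg (mul_nonneg (sq_nonneg lam) hN) h1.le]
  | succ j ih =>
    have ih' := ih (by omega)
    have h1 := Aj_le_cor hf hm hβ.le (j := j) (by omega) (fun s hs => by
      have := hce s (card_pos.1 (by omega)) (by omega)
      rwa [hs] at this)
    have h2 := sum_cor_le (T := T) (k := k) (j := j) (f := f) (by omega) hlam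
      (C := C) (fun s hs => by
        have := hsp s (by omega)
        rwa [hs] at this)
    have h3 := h1.trans h2
    set a := Aj T k (j + 1) f with ha
    have ha0 : 0 ≤ a := Aj_nonneg _ _ _ _
    set X : ℝ := 2 ^ k * nrm T k f with hX
    have hX0 : 0 ≤ X := by positivity
    have hj1 : (0 : ℝ) < (j : ℝ) + 1 := by positivity
    have hY0 : 0 ≤ ((j : ℝ) + 1) * a := by positivity
    -- arithmetic geometric mean
    have h4 : lam * (Real.sqrt X * Real.sqrt ((j + 1) * a)) ≤
        β / 2 * a + lam ^ 2 * (j + 1) / (2 * β) * X := by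
      have h5 := sq_nonneg (β * Real.sqrt ((j + 1) * a) - lam * (j + 1) * Real.sqrt X)
      have h6 : (β * Real.sqrt ((j + 1) * a) - lam * (j + 1) * Real.sqrt X) ^ 2 =
          β ^ 2 * ((j + 1) * a) + lam ^ 2 * (j + 1) ^ 2 * X -
            2 * β * (j + 1) * (lam * (Real.sqrt X * Real.sqrt ((j + 1) * a))) := by
        have e1 := Real.sq_sqrt hX0
        have e2 := Real.sq_sqrt hY0
        calc _ = β ^ 2 * Real.sqrt ((j + 1) * a) ^ 2 +
              lam ^ 2 * (j + 1) ^ 2 * Real.sqrt X ^ 2 -
              2 * β * (j + 1) * (lam * (Real.sqrt X * Real.sqrt ((j + 1) * a))) := by ring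
          _ = _ := by rw [e1, e2]
      rw [h6] at h5
      have h7 : 0 < 2 * β * ((j : ℝ) + 1) := by positivity
      have h8 : lam * (Real.sqrt X * Real.sqrt ((j + 1) * a)) ≤
          (β ^ 2 * ((j + 1) * a) + lam ^ 2 * (j + 1) ^ 2 * X) / (2 * β * (j + 1)) := by
        rw [le_div_iff₀ h7]; linarith
      refine h8.trans (le_of_eq ?_)
      field_simp
    have h9 : β / 2 * a ≤ C * Aj T k j f + lam ^ 2 * (j + 1) / (2 * β) * X := by linarith
    have h10 : a ≤ 2 * C / β * Aj T k j f + lam ^ 2 * (j + 1) / β ^ 2 * X := by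
      have h11 := mul_le_mul_of_nonneg_left h9 (by positivity : 0 ≤ 2 / β)
      have e1 : 2 / β * (β / 2 * a) = a := by field_simp
      have e2 : 2 / β * (C * Aj T k j f + lam ^ 2 * (j + 1) / (2 * β) * X) =
          2 * C / β * Aj T k j f + lam ^ 2 * (j + 1) / β ^ 2 * X := by field_simp
      rw [e1, e2] at h11
      exact h11
    refine h10.trans ?_
    have h12 := mul_le_mul_of_nonneg_left ih' (by positivity : 0 ≤ 2 * C / β)
    have h13 : lam ^ 2 * (j + 1) / β ^ 2 * X ≤
        (j + 1) * 2 ^ k / β ^ 2 * (μ + lam ^ 2) * nrm T k f := by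
      rw [hX]
      have : (0 : ℝ) ≤ (j + 1) * 2 ^ k / β ^ 2 * μ * nrm T k f := by positivity
      have e : (j + 1) * 2 ^ k / β ^ 2 * (μ + lam ^ 2) * nrm T k f =
          lam ^ 2 * (j + 1) / β ^ 2 * (2 ^ k * nrm T k f) +
            (j + 1) * 2 ^ k / β ^ 2 * μ * nrm T k f := by ring
      rw [e]; linarith
    have e : KK β C k (j + 1) * (μ + lam ^ 2) * nrm T k f =
        2 * C / β * (KK β C k j * (μ + lam ^ 2) * nrm T k f) +
          (j + 1) * 2 ^ k / β ^ 2 * (μ + lam ^ 2) * nrm T k f := by
      show (2 * C / β * KK β C k j + (j + 1) * 2 ^ k / β ^ 2) * (μ + lam ^ 2) * nrm T k f = _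
      ring
    rw [e]
    linarith

/-- the correlation on vertices -/
theorem cor_one (T : Finset (Finset V)) (f : Finset V → ZMod 2) :
    cor T 1 f = ∑ x, if f {x} ≠ 0 then (nrm (lk T {x}) 1 f : ℝ) else 0 := by
  unfold cor
  refine sum_congr rfl fun x _ => ?_
  have h1 : nrm (lk T {x}) (1 - 1) (loc f {x}) = if f {x} ≠ 0 then Wt T {x} else 0 := by
    unfold nrm
    rw [show 1 - 1 = 0 from rfl, powersetCard_zero, sum_singleton, Wt_empty, lk_card]
    simp [loc]
  rw [h1]
  by_cases hw : Wt T {x} = 0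
  · rw [nrm_lk_zero hw]; simp
  · split_ifs with h
    · have : (Wt T {x} : ℝ) ≠ 0 := by exact_mod_cast hw
      field_simp
    · simp

/-- **Counting.** Every face around a face of the support contains another face of the support. -/
theorem count_final {T : Finset (Finset V)} {D k : ℕ} (hT : Pure D T) (hk : 0 < k) (hkD : k ≤ D)
    {f : Finset V → ZMod 2} (hf : Cocy T k f) :
    (nrm T k f : ℝ) ≤
      ∑ r ∈ powersetCard (k - 1) (univ : Finset V), cor (lk T r) 1 (loc f r) := by
  have e1 : ∑ r ∈ powersetCard (k - 1) (univ : Finset V), cor (lk T r) 1 (loc f r) =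
      ∑ r ∈ powersetCard (k - 1) (univ : Finset V), ∑ x, if x ∈ r then 0 else
        (if f (insert x r) ≠ 0 then (nrm (lk T (insert x r)) 1 (loc f r) : ℝ) else 0) := by
    refine sum_congr rfl fun r _ => ?_
    rw [cor_one]
    refine sum_congr rfl fun x _ => ?_
    by_cases hx : x ∈ r
    · rw [if_pos hx, lk_lk_mem T hx, nrm_empty]
      simp
    · rw [if_neg hx, lk_lk T hx]
      have : loc f r {x} = f (insert x r) := by
        unfold loc
        congr 1
        ext y; simp
      rw [this]
  have hk1 : k - 1 + 1 = k := by omega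
  rw [e1, ← sum_insert_pairs (k - 1) fun r x =>
    if f (insert x r) ≠ 0 then (nrm (lk T (insert x r)) 1 (loc f r) : ℝ) else 0, hk1]
  unfold nrm
  push_cast
  refine sum_le_sum fun s hs => ?_
  rw [mem_powersetCard_univ] at hs
  by_cases hfs : f s = 0
  · rw [if_neg (by simpa using hfs)]
    exact sum_nonneg fun x _ => by positivity
  · rw [if_pos hfs]
    have h1 : ∑ x ∈ s, (if f (insert x (s.erase x)) ≠ 0 then
        (nrm (lk T (insert x (s.erase x))) 1 (loc f (s.erase x)) : ℝ) else 0) =
        ∑ x ∈ s, (nrm (lk T s) 1 (loc f (s.erase x)) : ℝ) := by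
      refine sum_congr rfl fun x hx => ?_
      rw [insert_erase hx, if_pos hfs]
    have h2 : nrm (lk T s) 1 (fun _ => 1) ≤ ∑ x ∈ s, nrm (lk T s) 1 (loc f (s.erase x)) := by
      refine nrm_sum_le s fun t ht hw _ => ?_
      obtain ⟨hd, hw'⟩ := Wt_lk_pos hw
      obtain ⟨y, rfl⟩ := card_eq_one.1 ht
      have hys : y ∉ s := by simpa using hd
      have e2 : s ∪ {y} = insert y s := by ext z; simp
      rw [e2] at hw'
      have h3 := hf (insert y s) (by rw [card_insert_of_notMem hys, hs]) hw'
      unfold cob at h3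
      rw [sum_insert hys, erase_insert hys] at h3
      by_contra hcon
      push Not at hcon
      rw [sum_eq_zero (fun x hx => ?_), add_zero] at h3
      · exact hfs h3
      · have h4 := hcon x hx
        unfold loc at h4
        rw [← h4]
        congr 1
        have hxy : x ≠ y := fun e => hys (e ▸ hx)
        ext z
        simp only [mem_erase, mem_insert, mem_union, mem_singleton]
        constructor
        · rintro ⟨h5, h6 | h6⟩
          · exact Or.inr h6
          · exact Or.inl ⟨h5, h6⟩
        · rintro (⟨h5, h6⟩ | h6)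
          · exact ⟨h5, Or.inr h6⟩
          · exact ⟨by rw [h6]; exact hxy.symm, Or.inl h6⟩
    have h3 : Wt T s ≤ nrm (lk T s) 1 (fun _ => 1) := by
      have h4 := Wt_step hT s
      have h5 : nrm (lk T s) 1 (fun _ => 1) = ∑ x, (if x ∈ s then 0 else Wt T (insert x s)) := by
        unfold nrm
        rw [powersetCard_one, sum_map]
        refine sum_congr rfl fun x _ => ?_
        simp only [Function.Embedding.coeFn_mk, ne_eq, one_ne_zero, not_false_iff, if_true]
        rw [Wt_lk]
        by_cases hx : x ∈ s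
        · rw [if_neg (by simpa using hx), if_pos hx]
        · rw [if_pos (by simpa using hx), if_neg hx]
          congr 1
          ext z; simp
      rw [h5, h4]
      refine Nat.le_mul_of_pos_left _ ?_
      omega
    have h6 : (Wt T s : ℝ) ≤ ∑ x ∈ s, (nrm (lk T s) 1 (loc f (s.erase x)) : ℝ) := by
      exact_mod_cast h3.trans h2
    rw [← h1] at h6
    exact_mod_cast h6

/-- **Small locally minimal cocycles vanish.** -/
theorem small_set {T : Finset (Finset V)} {D k : ℕ} (hT : Pure D T) (hk : 0 < k) (hkD : k ≤ D)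
    {f : Finset V → ZMod 2} (hf : Cocy T k f)
    (hm : LMin T k f) {β C lam μ : ℝ} (hβ : 0 < β) (hC : 0 ≤ C) (hlam : 0 ≤ lam)
    (hce : ∀ s : Finset V, s.Nonempty → s.card < k → CE (lk T s) (k - s.card) β)
    (hsp : ∀ s : Finset V, s.card < k → SP (lk T s) (k - s.card) C lam)
    (hμ0 : 0 ≤ μ) (hμ : (nrm T k f : ℝ) ≤ μ * T.card)
    (hc : C * (KK β C k (k - 1) * (μ + lam ^ 2)) + lam * 2 ^ k < 1) : nrm T k f = 0 := by
  have h1 := count_final hT hk hkD hf
  have h2 : ∑ r ∈ powersetCard (k - 1) (univ : Finset V), cor (lk T r) 1 (loc f r) ≤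
      C * Aj T k (k - 1) f + lam * (2 ^ k * nrm T k f) := by
    have h3 : ∑ r ∈ powersetCard (k - 1) (univ : Finset V), cor (lk T r) 1 (loc f r) ≤
      ∑ r ∈ powersetCard (k - 1) (univ : Finset V),
        (C * ((nrm (lk T r) (k - (k - 1)) (loc f r) : ℝ) ^ 2 / Wt T r) +
        lam * (nrm (lk T r) (k - (k - 1)) (loc f r))) := by
      refine sum_le_sum fun r hr => ?_
      rw [mem_powersetCard_univ] at hr
      have h4 := hsp r (by omega) (loc f r)
      rw [hr] at h4
      have e1 : k - (k - 1) = 1 := by omega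
      rw [e1] at h4 ⊢
      rw [lk_card] at h4
      have e2 : sq1 (lk T r) 1 (loc f r) = nrm (lk T r) 1 (loc f r) := by
        unfold sq1
        have : ∀ x, ((nrm (lk (lk T r) {x}) (1 - 1) (loc (loc f r) {x}) : ℝ) ^ 2 /
            Wt (lk T r) {x}) = if loc f r {x} ≠ 0 then (Wt (lk T r) {x} : ℝ) else 0 := by
          intro x
          have h1 : nrm (lk (lk T r) {x}) (1 - 1) (loc (loc f r) {x}) =
              if loc f r {x} ≠ 0 then Wt (lk T r) {x} else 0 := by
            unfold nrm
            rw [show 1 - 1 = 0 from rfl, powersetCard_zero, sum_singleton, Wt_empty, lk_card]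
            simp [loc]
          rw [h1]
          split_ifs with h
          · by_cases hw : (Wt (lk T r) {x} : ℝ) = 0
            · rw [hw]; simp
            · field_simp
          · simp
        simp only [this]
        unfold nrm
        rw [powersetCard_one, sum_map]
        push_cast
        rfl
      rw [e2, Real.mul_self_sqrt (by positivity)] at h4
      exact h4
    refine h3.trans ?_
    rw [sum_add_distrib, ← mul_sum, ← mul_sum]
    refine add_le_add le_rfl (mul_le_mul_of_nonneg_left ?_ hlam)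
    exact sum_nrm_le T k (k - 1) (by omega) f
  have h5 := Aj_small hf hm hβ hC hlam hce hsp hμ0 hμ (k - 1) (by omega)
  have h6 := mul_le_mul_of_nonneg_left h5 hC
  by_contra hne
  have hN : (0 : ℝ) < nrm T k f := by
    exact_mod_cast Nat.pos_of_ne_zero hne
  have h7 : (nrm T k f : ℝ) ≤
      (C * (KK β C k (k - 1) * (μ + lam ^ 2)) + lam * 2 ^ k) * nrm T k f := by
    calc (nrm T k f : ℝ) ≤ C * Aj T k (k - 1) f + lam * (2 ^ k * nrm T k f) := h1.trans h2
      _ ≤ C * (KK β C k (k - 1) * (μ + lam ^ 2) * nrm T k f) + lam * (2 ^ k * nrm T k f) := by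
        linarith
      _ = _ := by ring
  nlinarith

end Vale.Agent.P067A
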