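import Vale.Agent.P067A.SpDefs
import Vale.Agent.P067A.SmallSet

/-!
# P067: coloured correlations and the spectral hypothesis `SP`
-/

set_option linter.unusedSectionVars false

namespace Vale.Agent.P067A

open Finset

/-! ### centering -/

section center

variable {α : Type*} (T : Finset α)

/-- the mean -/
noncomputable def avg (a : α → ℝ) : ℝ := (∑ t ∈ T, a t) / T.card

theorem sum_center (hT : T.Nonempty) (a : α → ℝ) : ∑ t ∈ T, (a t - avg T a) = 0 := by
  have h : (0 : ℝ) < T.card := by exact_mod_cast card_pos.2 hT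
  rw [sum_sub_distrib, sum_const, nsmul_eq_mul]
  unfold avg
  field_simp
  ring

theorem sum_center_sq (a : α → ℝ) : ∑ t ∈ T, (a t - avg T a) ^ 2 =
    ∑ t ∈ T, a t ^ 2 - T.card * avg T a ^ 2 := by
  rcases T.eq_empty_or_nonempty with h | h
  · subst h; simp
  have h0 : (0 : ℝ) < T.card := by exact_mod_cast card_pos.2 h
  have e1 : ∀ t, (a t - avg T a) ^ 2 = a t ^ 2 - 2 * avg T a * a t + avg T a ^ 2 := fun t => by ring
  simp only [e1]
  rw [sum_add_distrib, sum_sub_distrib, ← mul_sum, sum_const, nsmul_eq_mul]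
  have e2 : ∑ t ∈ T, a t = T.card * avg T a := by unfold avg; field_simp
  rw [e2]; ring

theorem sum_center_sq_le (a : α → ℝ) : ∑ t ∈ T, (a t - avg T a) ^ 2 ≤ ∑ t ∈ T, a t ^ 2 := by
  rw [sum_center_sq]
  have : 0 ≤ (T.card : ℝ) * avg T a ^ 2 := by positivity
  linarith

theorem card_avg_sq_le (a : α → ℝ) : T.card * avg T a ^ 2 ≤ ∑ t ∈ T, a t ^ 2 := by
  have h1 := sum_center_sq T a
  have h2 : 0 ≤ ∑ t ∈ T, (a t - avg T a) ^ 2 := sum_nonneg fun _ _ => sq_nonneg _
  linarith

theorem sum_mul_center (hT : T.Nonempty) (a b : α → ℝ) :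
    ∑ t ∈ T, a t * b t = (∑ t ∈ T, a t) * (∑ t ∈ T, b t) / T.card +
      ∑ t ∈ T, (a t - avg T a) * (b t - avg T b) := by
  have h0 : (0 : ℝ) < T.card := by exact_mod_cast card_pos.2 hT
  have e1 : ∀ t, (a t - avg T a) * (b t - avg T b) =
      a t * b t - avg T b * a t - avg T a * b t + avg T a * avg T b := fun t => by ring
  simp only [e1]
  rw [sum_add_distrib, sum_sub_distrib, sum_sub_distrib, ← mul_sum, ← mul_sum, sum_const,
    nsmul_eq_mul]
  have e2 : ∑ t ∈ T, a t = T.card * avg T a := by unfold avg; field_simp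
  have e3 : ∑ t ∈ T, b t = T.card * avg T b := by unfold avg; field_simp
  rw [e2, e3]
  field_simp
  ring

end center

variable {V : Type*} [Fintype V] [DecidableEq V]

/-! ### typed faces -/

theorem Typed.sing {I : Finset ℕ} {ty : V → ℕ} {T : Finset (Finset V)} (h : Typed I ty T)
    {i : ℕ} (hi : i ∈ I) {t : Finset V} (ht : t ∈ T) :
    ∃ x ∈ t, ty x = i ∧ pr ty {i} t = {x} := by
  have h1 := h.img t ht
  rw [← h1] at hi
  obtain ⟨x, hx, hxi⟩ := mem_image.1 hi
  refine ⟨x, hx, hxi, ?_⟩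
  ext y
  simp only [pr, mem_filter, mem_singleton]
  constructor
  · rintro ⟨hy, hyi⟩
    exact h.inj t ht hy hx (hyi.trans hxi.symm)
  · rintro rfl
    exact ⟨hx, hxi⟩

/-- sums over a face are sums over types -/
theorem Typed.sum_face {I : Finset ℕ} {ty : V → ℕ} {T : Finset (Finset V)} (h : Typed I ty T)
    {t : Finset V} (ht : t ∈ T) (g : V → ℝ) :
    ∑ x ∈ t, g x = ∑ i ∈ I, ∑ x ∈ pr ty {i} t, g x := by
  have h1 := h.img t ht
  have h2 : ∀ x ∈ t, ty x ∈ I := fun x hx => by rw [← h1]; exact mem_image_of_mem _ hx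
  rw [← sum_fiberwise_of_maps_to h2]
  refine sum_congr rfl fun i _ => sum_congr ?_ fun _ _ => rfl
  ext x; simp [pr]

/-- top faces according to their vertex of type `j` -/
theorem Typed.sum_type {I : Finset ℕ} {ty : V → ℕ} {T : Finset (Finset V)} (h : Typed I ty T)
    {j : ℕ} (hj : j ∈ I) (H : Finset V → ℝ) :
    ∑ t ∈ T, H t = ∑ y ∈ univ.filter (fun y => ty y = j),
      ∑ t ∈ T.filter (fun t => {y} ⊆ t), H t := by
  have e : ∀ y : V, ∑ t ∈ T.filter (fun t => {y} ⊆ t), H t =
      ∑ t ∈ T, if {y} ⊆ t then H t else 0 := fun y => sum_filter _ _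
  simp only [e]
  rw [sum_comm]
  refine sum_congr rfl fun t ht => ?_
  obtain ⟨x, hx, hxj, hpr⟩ := h.sing hj ht
  rw [sum_eq_single x]
  · rw [if_pos (singleton_subset_iff.2 hx)]
  · intro y hyj hy
    rw [mem_filter] at hyj
    rw [if_neg]
    intro hyt
    exact hy (h.inj t ht (singleton_subset_iff.1 hyt) hx (hyj.2.trans hxj.symm))
  · intro hx'
    exact absurd (mem_filter.2 ⟨mem_univ x, hxj⟩) hx'

/-- codimension two -/
theorem gap_two {i j : ℕ} {ty : V → ℕ} {T : Finset (Finset V)} (h : Typed {i, j} ty T)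
    (hij : i ≠ j) {rho : ℝ} (hrho : 0 ≤ rho) (hcol : Col ty T i {j} rho) : Gap T 2 rho := by
  intro f hf
  rcases T.eq_empty_or_nonempty with h0 | h0
  · subst h0; simp
  set F : Finset V → ℝ := fun u => ∑ x ∈ u, f x with hF
  set a : Finset V → ℝ := fun t => F (pr ty {i} t) with ha
  set b : Finset V → ℝ := fun t => F (pr ty {j} t) with hb
  have hS : ∀ t ∈ T, ∑ x ∈ t, f x = a t + b t := by
    intro t ht
    rw [h.sum_face ht, sum_pair hij]
  have hQ : ∀ t ∈ T, ∑ x ∈ t, f x ^ 2 = a t ^ 2 + b t ^ 2 := by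
    intro t ht
    rw [h.sum_face ht, sum_pair hij]
    obtain ⟨x, _, _, hx⟩ := h.sing (i := i) (by simp) ht
    obtain ⟨y, _, _, hy⟩ := h.sing (i := j) (by simp) ht
    simp only [ha, hb, hF]
    rw [hx, hy]
    simp
  rw [sum_congr rfl hS] at hf
  rw [sum_congr rfl hQ]
  have e1 : ∑ t ∈ T, ((∑ x ∈ t, f x) ^ 2 - ∑ x ∈ t, f x ^ 2) = 2 * ∑ t ∈ T, a t * b t := by
    rw [mul_sum]
    refine sum_congr rfl fun t ht => ?_
    rw [hS t ht, hQ t ht]; ring
  rw [e1]
  rw [sum_add_distrib] at hf ⊢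
  have hc := hcol (fun u => F u - avg T a) (fun u => F u - avg T b)
    (sum_center T h0 a) (sum_center T h0 b)
  have h1 := sum_mul_center T h0 a b
  have h2 : ∑ t ∈ T, b t = - ∑ t ∈ T, a t := by linarith
  rw [h2] at h1
  have h3 : (∑ t ∈ T, a t) * (- ∑ t ∈ T, a t) / T.card ≤ 0 := by
    rw [mul_neg, neg_div]
    have : 0 ≤ (∑ t ∈ T, a t) * (∑ t ∈ T, a t) / T.card :=
      div_nonneg (mul_self_nonneg _) (Nat.cast_nonneg _)
    linarith
  have h4 : ∑ t ∈ T, (a t - avg T a) * (b t - avg T b) ≤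
      rho * (Real.sqrt (∑ t ∈ T, (a t - avg T a) ^ 2) *
        Real.sqrt (∑ t ∈ T, (b t - avg T b) ^ 2)) := hc
  have h5 : Real.sqrt (∑ t ∈ T, (a t - avg T a) ^ 2) *
        Real.sqrt (∑ t ∈ T, (b t - avg T b) ^ 2) ≤
      (∑ t ∈ T, a t ^ 2 + ∑ t ∈ T, b t ^ 2) / 2 := by
    set A := ∑ t ∈ T, (a t - avg T a) ^ 2 with hA
    set B := ∑ t ∈ T, (b t - avg T b) ^ 2 with hB
    have hA0 : 0 ≤ A := sum_nonneg fun _ _ => sq_nonneg _
    have hB0 : 0 ≤ B := sum_nonneg fun _ _ => sq_nonneg _
    have h6 := sq_nonneg (Real.sqrt A - Real.sqrt B)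
    have h7 := Real.sq_sqrt hA0
    have h8 := Real.sq_sqrt hB0
    have h9 : A ≤ ∑ t ∈ T, a t ^ 2 := sum_center_sq_le T a
    have h10 : B ≤ ∑ t ∈ T, b t ^ 2 := sum_center_sq_le T b
    nlinarith
  have h6 := mul_le_mul_of_nonneg_left h5 hrho
  push_cast
  nlinarith

/-- correlations of two vertices from the one-sided gap -/
theorem gap_col {I : Finset ℕ} {ty : V → ℕ} {T : Finset (Finset V)} (h : Typed I ty T)
    {i j : ℕ} (hi : i ∈ I) (hj : j ∈ I) (hij : i ≠ j) {lam : ℝ}
    (hg : Gap T I.card lam) : Col ty T i {j} (lam * (I.card - 1)) := by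
  intro F G hF hG
  set A := ∑ t ∈ T, F (pr ty {i} t) ^ 2 with hA
  set B := ∑ t ∈ T, G (pr ty {j} t) ^ 2 with hB
  have hA0 : 0 ≤ A := sum_nonneg fun _ _ => sq_nonneg _
  have hB0 : 0 ≤ B := sum_nonneg fun _ _ => sq_nonneg _
  set p := Real.sqrt B with hp
  set q := Real.sqrt A with hq
  rcases hA0.eq_or_lt with hA1 | hA1
  · have h0 : ∀ t ∈ T, F (pr ty {i} t) = 0 := by
      intro t ht
      have := (sum_eq_zero_iff_of_nonneg (fun t _ => sq_nonneg (F (pr ty {i} t)))).1 hA1.symm t ht
      exact pow_eq_zero_iff two_ne_zero |>.1 this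
    rw [sum_eq_zero fun t ht => by rw [h0 t ht, zero_mul]]
    have : q = 0 := by rw [hq, ← hA1, Real.sqrt_zero]
    rw [this, zero_mul, mul_zero]
  rcases hB0.eq_or_lt with hB1 | hB1
  · have h0 : ∀ t ∈ T, G (pr ty {j} t) = 0 := by
      intro t ht
      have := (sum_eq_zero_iff_of_nonneg (fun t _ => sq_nonneg (G (pr ty {j} t)))).1 hB1.symm t ht
      exact pow_eq_zero_iff two_ne_zero |>.1 this
    rw [sum_eq_zero fun t ht => by rw [h0 t ht, mul_zero]]
    have : p = 0 := by rw [hp, ← hB1, Real.sqrt_zero]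
    rw [this, mul_zero, mul_zero]
  have hp0 : 0 < p := Real.sqrt_pos.2 hB1
  have hq0 : 0 < q := Real.sqrt_pos.2 hA1
  have hp2 : p ^ 2 = B := Real.sq_sqrt hB0
  have hq2 : q ^ 2 = A := Real.sq_sqrt hA0
  set f : V → ℝ := fun x => if ty x = i then p * F {x} else if ty x = j then q * G {x} else 0
    with hf
  -- sums over a face
  have key : ∀ (e : ℝ → ℝ), e 0 = 0 → ∀ t ∈ T, ∑ x ∈ t, e (f x) =
      e (p * F (pr ty {i} t)) + e (q * G (pr ty {j} t)) := by
    intro e he t ht
    have hz : ∑ l ∈ (I.erase i).erase j, ∑ x ∈ pr ty {l} t, e (f x) = 0 := by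
      refine sum_eq_zero fun l hl => sum_eq_zero fun x hx => ?_
      have hxl : ty x = l := by simpa [pr] using (mem_filter.1 hx).2
      simp only [mem_erase] at hl
      simp only [hf]
      rw [if_neg (by rw [hxl]; exact hl.2.1), if_neg (by rw [hxl]; exact hl.1), he]
    rw [h.sum_face ht, ← add_sum_erase I _ hi,
      ← add_sum_erase (I.erase i) _ (mem_erase.2 ⟨hij.symm, hj⟩), hz, add_zero]
    obtain ⟨x, _, hxi, hx⟩ := h.sing hi ht
    obtain ⟨y, _, hyj, hy⟩ := h.sing hj ht
    rw [hx, hy, sum_singleton, sum_singleton]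
    simp only [hf]
    rw [if_pos hxi, if_neg (by rw [hyj]; exact hij.symm), if_pos hyj]
  have hS := key id rfl
  have hQ := key (fun z => z ^ 2) (by simp)
  simp only [id] at hS
  have h1 := hg f (by
    rw [sum_congr rfl hS, sum_add_distrib, ← mul_sum, ← mul_sum, hF, hG]; ring)
  have h2 : ∑ t ∈ T, ((∑ x ∈ t, f x) ^ 2 - ∑ x ∈ t, f x ^ 2) =
      2 * p * q * ∑ t ∈ T, F (pr ty {i} t) * G (pr ty {j} t) := by
    rw [mul_sum]
    refine sum_congr rfl fun t ht => ?_
    rw [hS t ht, hQ t ht]; ring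
  have h3 : ∑ t ∈ T, ∑ x ∈ t, f x ^ 2 = 2 * p ^ 2 * q ^ 2 := by
    rw [sum_congr rfl hQ, sum_add_distrib]
    simp only [mul_pow]
    rw [← mul_sum, ← mul_sum, ← hA, ← hB, ← hp2, ← hq2]; ring
  rw [h2, h3] at h1
  have h4 : 0 < 2 * p * q := by positivity
  have h5 : 2 * p * q * ∑ t ∈ T, F (pr ty {i} t) * G (pr ty {j} t) ≤
      2 * p * q * (lam * (I.card - 1) * (q * p)) := by
    refine h1.trans (le_of_eq ?_); ring
  exact le_of_mul_le_mul_left h5 h4

/-- restriction to a link: `pr` for types different from the type of `y` -/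
theorem pr_sdiff {ty : V → ℕ} {J : Finset ℕ} {y : V} (hy : ty y ∉ J) (t : Finset V) :
    pr ty J (t \ {y}) = pr ty J t := by
  ext x
  simp only [pr, mem_filter, mem_sdiff, mem_singleton]
  constructor
  · rintro ⟨⟨h1, _⟩, h2⟩; exact ⟨h1, h2⟩
  · rintro ⟨h1, h2⟩
    exact ⟨⟨h1, fun h => hy (h ▸ h2)⟩, h2⟩

theorem pr_insert {I : Finset ℕ} {ty : V → ℕ} {T : Finset (Finset V)} (h : Typed I ty T)
    {J : Finset ℕ} {j : ℕ} {y : V} (hy : ty y = j) {t : Finset V} (ht : t ∈ T)
    (hyt : y ∈ t) : pr ty (insert j J) t = insert y (pr ty J t) := by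
  ext x
  simp only [pr, mem_filter, mem_insert]
  constructor
  · rintro ⟨h1, h2 | h2⟩
    · exact Or.inl (h.inj t ht h1 hyt (h2.trans hy.symm))
    · exact Or.inr ⟨h1, h2⟩
  · rintro (rfl | ⟨h1, h2⟩)
    · exact ⟨hyt, Or.inl hy⟩
    · exact ⟨h1, Or.inr h2⟩

/-- **Coloured correlations of a vertex and a face.** -/
theorem col_set {ty : V → ℕ} {rho : ℝ} (hrho : 0 ≤ rho) (J : Finset ℕ) :
    ∀ (I : Finset ℕ) (T : Finset (Finset V)), Typed I ty T →
      (∀ s : Finset V, ∀ i ∈ I \ s.image ty, ∀ j ∈ I \ s.image ty, i ≠ j →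
        Col ty (lk T s) i {j} rho) →
      ∀ i ∈ I, i ∉ J → J ⊆ I → Col ty T i J (J.card * rho) := by
  induction J using Finset.induction_on with
  | empty =>
    intro I T _ _ i _ _ _ F G hF hG
    have e : ∀ t : Finset V, pr ty ∅ t = ∅ := fun t => by simp [pr]
    simp only [e] at hG ⊢
    rw [← sum_mul, hF, zero_mul]
    simp
  | insert j J hj ih =>
    intro I T hT H i hi hiJ hJI F G hF hG
    have hij : i ≠ j := fun e => hiJ (e ▸ mem_insert_self _ _)
    have hiJ' : i ∉ J := fun e => hiJ (mem_insert_of_mem e)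
    have hjI : j ∈ I := hJI (mem_insert_self _ _)
    have hJI' : J ⊆ I := (subset_insert _ _).trans hJI
    set a : Finset V → ℝ := fun t => F (pr ty {i} t) with ha
    set g : Finset V → ℝ := fun t => G (pr ty (insert j J) t) with hg
    set A := ∑ t ∈ T, a t ^ 2 with hA
    set B := ∑ t ∈ T, g t ^ 2 with hB
    have hA0 : 0 ≤ A := sum_nonneg fun _ _ => sq_nonneg _
    have hB0 : 0 ≤ B := sum_nonneg fun _ _ => sq_nonneg _
    -- conditional means
    set Ty : V → Finset (Finset V) := fun y => T.filter (fun t => {y} ⊆ t) with hTy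
    set g1 : Finset V → ℝ := fun u => avg (T.filter (fun t => u ⊆ t)) g with hg1
    have hprj : ∀ y, ty y = j → ∀ t ∈ Ty y, pr ty {j} t = {y} := by
      intro y hy t ht
      rw [hTy, mem_filter] at ht
      obtain ⟨x, hx, hxj, hpr⟩ := hT.sing hjI ht.1
      rw [hpr, hT.inj t ht.1 hx (singleton_subset_iff.1 ht.2) (hxj.trans hy.symm)]
    have hg1y : ∀ y, ty y = j → ∀ t ∈ Ty y, g1 (pr ty {j} t) = avg (Ty y) g := by
      intro y hy t ht
      rw [hprj y hy t ht]
    -- the mean of `g1`
    have hsum1 : ∑ t ∈ T, g1 (pr ty {j} t) = ∑ t ∈ T, g t := by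
      rw [hT.sum_type hjI, hT.sum_type hjI g]
      refine sum_congr rfl fun y hy => ?_
      have hy' : ty y = j := by simpa using hy
      rw [sum_congr rfl (hg1y y hy'), sum_const, nsmul_eq_mul]
      unfold avg
      rcases (Ty y).eq_empty_or_nonempty with h0 | h0
      · rw [h0]; simp only [hTy] at h0; rw [h0]; simp
      · have : (0 : ℝ) < (Ty y).card := by exact_mod_cast card_pos.2 h0
        show ((Ty y).card : ℝ) * ((∑ t ∈ Ty y, g t) / (Ty y).card) = ∑ t ∈ Ty y, g t
        field_simp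
    have hsq1 : ∑ t ∈ T, g1 (pr ty {j} t) ^ 2 ≤ B := by
      rw [hB, hT.sum_type hjI, hT.sum_type hjI (fun t => g t ^ 2)]
      refine sum_le_sum fun y hy => ?_
      have hy' : ty y = j := by simpa using hy
      rw [sum_congr rfl (fun t ht => by rw [hg1y y hy' t ht] : ∀ t ∈ Ty y,
        g1 (pr ty {j} t) ^ 2 = avg (Ty y) g ^ 2), sum_const, nsmul_eq_mul]
      exact card_avg_sq_le (Ty y) g
    have hsq2 : ∑ t ∈ T, (g t - g1 (pr ty {j} t)) ^ 2 ≤ B := by
      rw [hB, hT.sum_type hjI, hT.sum_type hjI (fun t => g t ^ 2)]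
      refine sum_le_sum fun y hy => ?_
      have hy' : ty y = j := by simpa using hy
      rw [sum_congr rfl (fun t ht => by rw [hg1y y hy' t ht] : ∀ t ∈ Ty y,
        (g t - g1 (pr ty {j} t)) ^ 2 = (g t - avg (Ty y) g) ^ 2)]
      exact sum_center_sq_le (Ty y) g
    -- first part
    have p1 : ∑ t ∈ T, a t * g1 (pr ty {j} t) ≤ rho * (Real.sqrt A * Real.sqrt B) := by
      have h1 := H ∅ i (by simpa using hi) j (by simpa using hjI) hij
      rw [lk_empty] at h1
      have h2 := h1 F g1 hF (by rw [hsum1]; exact hG)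
      refine h2.trans (mul_le_mul_of_nonneg_left ?_ hrho)
      exact mul_le_mul_of_nonneg_left (Real.sqrt_le_sqrt hsq1) (Real.sqrt_nonneg _)
    -- second part
    have p2 : ∑ t ∈ T, a t * (g t - g1 (pr ty {j} t)) ≤
        J.card * rho * (Real.sqrt A * Real.sqrt B) := by
      rw [hT.sum_type hjI]
      have h1 : ∀ y ∈ univ.filter (fun y => ty y = j),
          ∑ t ∈ T.filter (fun t => {y} ⊆ t), a t * (g t - g1 (pr ty {j} t)) ≤
          J.card * rho * (Real.sqrt (∑ t ∈ Ty y, a t ^ 2) *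
            Real.sqrt (∑ t ∈ Ty y, (g t - g1 (pr ty {j} t)) ^ 2)) := by
        intro y hy
        have hy' : ty y = j := by simpa using hy
        rcases (Ty y).eq_empty_or_nonempty with h0 | h0
        · simp only [hTy] at h0 ⊢; rw [h0]; simp
        have hlT : Typed (I \ {j}) ty (lk T {y}) := by
          have := hT.lk {y}
          rwa [image_singleton, hy'] at this
        have hyJ : ty y ∉ J := by rw [hy']; exact hj
        have hyi : ty y ∉ ({i} : Finset ℕ) := by
          rw [hy']; simpa using hij.symm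
        have hcol := ih (I \ {j}) (lk T {y}) hlT (by
          intro s i' hi' j' hj' hij'
          by_cases hys : y ∈ s
          · intro F' G' _ _
            have : lk (lk T {y}) s = ∅ := by
              rw [← card_eq_zero, lk_card, Wt_lk, if_neg]
              simpa using hys
            rw [this]; simp
          · have e : lk (lk T {y}) s = lk T (insert y s) := by
              -- link of a link, general form
              unfold lk
              rw [filter_image, image_image, filter_filter]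
              ext u
              simp only [mem_image, mem_filter, Function.comp]
              constructor
              · rintro ⟨t, ⟨ht, h1, h2⟩, rfl⟩
                refine ⟨t, ⟨ht, ?_⟩, ?_⟩
                · exact insert_subset (singleton_subset_iff.1 h1) (h2.trans sdiff_subset)
                · ext z; simp only [mem_sdiff, mem_insert, mem_singleton]; tauto
              · rintro ⟨t, ⟨ht, h1⟩, rfl⟩
                refine ⟨t, ⟨ht, ?_, ?_⟩, ?_⟩
                · rw [singleton_subset_iff]; exact h1 (mem_insert_self _ _)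
                · intro z hz
                  rw [mem_sdiff, mem_singleton]
                  exact ⟨h1 (mem_insert_of_mem hz), fun e => hys (e ▸ hz)⟩
                · ext z; simp only [mem_sdiff, mem_insert, mem_singleton]; tauto
            rw [e]
            have e2 : I \ (insert y s).image ty = (I \ {j}) \ s.image ty := by
              rw [image_insert, hy']
              ext z; simp only [mem_sdiff, mem_insert, mem_singleton]; tauto
            refine H (insert y s) i' ?_ j' ?_ hij'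
            · rw [e2]; exact hi'
            · rw [e2]; exact hj')
          i (by rw [mem_sdiff, mem_singleton]; exact ⟨hi, hij⟩) hiJ'
          (fun l hl => by
            rw [mem_sdiff, mem_singleton]
            exact ⟨hJI' hl, fun e => hj (e ▸ hl)⟩)
        -- translate sums
        set F' : Finset V → ℝ := fun u => F u - avg (Ty y) a with hF'
        set G' : Finset V → ℝ := fun u => G (insert y u) - avg (Ty y) g with hG'
        have eF : ∀ t ∈ Ty y, F' (pr ty {i} (t \ {y})) = a t - avg (Ty y) a := by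
          intro t _
          rw [pr_sdiff hyi]
        have eG : ∀ t ∈ Ty y, G' (pr ty J (t \ {y})) = g t - avg (Ty y) g := by
          intro t ht
          rw [hTy, mem_filter] at ht
          rw [pr_sdiff hyJ]
          simp only [hG', hg]
          rw [pr_insert hT hy' ht.1 (singleton_subset_iff.1 ht.2)]
        have h2 := hcol F' G' (by
            rw [sum_lk]
            rw [sum_congr rfl eF]
            exact sum_center (Ty y) h0 a) (by
            rw [sum_lk]
            rw [sum_congr rfl eG]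
            exact sum_center (Ty y) h0 g)
        simp only [sum_lk] at h2
        have e3 : ∑ t ∈ T.filter (fun t => {y} ⊆ t),
            F' (pr ty {i} (t \ {y})) * G' (pr ty J (t \ {y})) =
            ∑ t ∈ Ty y, (a t - avg (Ty y) a) * (g t - avg (Ty y) g) :=
          sum_congr rfl fun t ht => by rw [eF t ht, eG t ht]
        have e4 : ∑ t ∈ T.filter (fun t => {y} ⊆ t), F' (pr ty {i} (t \ {y})) ^ 2 =
            ∑ t ∈ Ty y, (a t - avg (Ty y) a) ^ 2 :=
          sum_congr rfl fun t ht => by rw [eF t ht]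
        have e5 : ∑ t ∈ T.filter (fun t => {y} ⊆ t), G' (pr ty J (t \ {y})) ^ 2 =
            ∑ t ∈ Ty y, (g t - avg (Ty y) g) ^ 2 :=
          sum_congr rfl fun t ht => by rw [eG t ht]
        rw [e3, e4, e5] at h2
        have e6 : ∑ t ∈ Ty y, a t * (g t - g1 (pr ty {j} t)) =
            ∑ t ∈ Ty y, (a t - avg (Ty y) a) * (g t - avg (Ty y) g) := by
          rw [sum_congr rfl (fun t ht => by rw [hg1y y hy' t ht] : ∀ t ∈ Ty y,
            a t * (g t - g1 (pr ty {j} t)) = a t * (g t - avg (Ty y) g))]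
          simp only [sub_mul]
          rw [sum_sub_distrib, ← mul_sum, sum_center (Ty y) h0 g, mul_zero, sub_zero]
        have e7 : ∑ t ∈ Ty y, (g t - g1 (pr ty {j} t)) ^ 2 =
            ∑ t ∈ Ty y, (g t - avg (Ty y) g) ^ 2 :=
          sum_congr rfl fun t ht => by rw [hg1y y hy' t ht]
        show ∑ t ∈ Ty y, a t * (g t - g1 (pr ty {j} t)) ≤ _
        rw [e6, e7]
        refine h2.trans (mul_le_mul_of_nonneg_left ?_ (by positivity))
        exact mul_le_mul_of_nonneg_right (Real.sqrt_le_sqrt (sum_center_sq_le (Ty y) a))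
          (Real.sqrt_nonneg _)
      refine (sum_le_sum h1).trans ?_
      rw [← mul_sum]
      refine mul_le_mul_of_nonneg_left ?_ (by positivity)
      refine (sqrt_cs _ (fun y => ∑ t ∈ Ty y, a t ^ 2)
        (fun y => ∑ t ∈ Ty y, (g t - g1 (pr ty {j} t)) ^ 2)
        (fun y => sum_nonneg fun _ _ => sq_nonneg _)
        (fun y => sum_nonneg fun _ _ => sq_nonneg _)).trans ?_
      have e1 : ∑ y ∈ univ.filter (fun y => ty y = j), ∑ t ∈ Ty y, a t ^ 2 = A := by
        rw [hA, hT.sum_type hjI (fun t => a t ^ 2)]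
      have e2 : ∑ y ∈ univ.filter (fun y => ty y = j),
          ∑ t ∈ Ty y, (g t - g1 (pr ty {j} t)) ^ 2 ≤ B := by
        refine le_trans (le_of_eq ?_) hsq2
        rw [hT.sum_type hjI (fun t => (g t - g1 (pr ty {j} t)) ^ 2)]
      rw [e1]
      exact mul_le_mul_of_nonneg_left (Real.sqrt_le_sqrt e2) (Real.sqrt_nonneg _)
    have e : ∑ t ∈ T, a t * g t =
        ∑ t ∈ T, a t * g1 (pr ty {j} t) + ∑ t ∈ T, a t * (g t - g1 (pr ty {j} t)) := by
      rw [← sum_add_distrib]
      exact sum_congr rfl fun t _ => by ring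
    show ∑ t ∈ T, a t * g t ≤ _
    rw [e, card_insert_of_notMem hj]
    push_cast
    nlinarith

end Vale.Agent.P067A
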