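import Vale.Agent.P067A.Clean
import Vale.Agent.P067.Basic

/-!
# P067: the `d`-skeleton in the sense of the problem
-/

set_option linter.unusedSectionVars false

namespace Vale.Agent.P067A

open Finset

open Vale.Agent.P067 (faceSet IsPure topDegree weight Cochain cochainNorm coboundary cocycles
  coboundaries cochainDist IsCoboundaryExpander)

variable {V : Type} [Fintype V] [DecidableEq V]

/-- the `d`-skeleton -/
def skel (T : Finset (Finset V)) (d : ℕ) (hV : ∀ v : V, 0 < Wt T {v}) :
    AbstractSimplicialComplex V where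
  faces := {s | s.Nonempty ∧ s.card ≤ d + 1 ∧ 0 < Wt T s}
  isRelLowerSet_faces := by
    rintro s ⟨h1, h2, h3⟩
    refine ⟨h1, fun t hts ht => ⟨ht, (card_le_card hts).trans h2, ?_⟩⟩
    exact lt_of_lt_of_le h3 (Wt_mono hts)
  singleton_mem := fun v => ⟨singleton_nonempty v, by simp, hV v⟩

variable {T : Finset (Finset V)} {d N Q : ℕ} {hV : ∀ v : V, 0 < Wt T {v}}

theorem mem_faceSet_skel {i : ℕ} (hi : i ≤ d) {s : Finset V} :
    s ∈ faceSet (skel T d hV) i ↔ s.card = i + 1 ∧ 0 < Wt T s := by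
  unfold faceSet
  simp only [mem_filter, mem_univ, true_and]
  constructor
  · rintro ⟨⟨_, _, h⟩, h2⟩; exact ⟨h2, h⟩
  · rintro ⟨h1, h2⟩
    exact ⟨⟨card_pos.1 (by omega), by omega, h2⟩, h1⟩

/-- faces extend to faces with `d + 1` vertices -/
theorem exists_top (hT : ∀ t ∈ T, t.card = N) (hd : d + 1 ≤ N) {s : Finset V}
    (hs : s.card ≤ d + 1) (hw : 0 < Wt T s) : ∃ t ∈ faceSet (skel T d hV) d, s ⊆ t := by
  unfold Wt at hw
  obtain ⟨t, ht⟩ := card_pos.1 hw
  rw [mem_filter] at ht
  obtain ⟨u, h1, h2, h3⟩ := exists_subsuperset_card_eq ht.2 hs (by rw [hT t ht.1]; exact hd)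
  refine ⟨u, (mem_faceSet_skel le_rfl).2 ⟨h3, ?_⟩, h1⟩
  unfold Wt
  exact card_pos.2 ⟨t, mem_filter.2 ⟨ht.1, h2⟩⟩

theorem skel_pure (hT : ∀ t ∈ T, t.card = N) (hd : d + 1 ≤ N) : IsPure (skel T d hV) d := by
  rintro s ⟨_, h2, h3⟩
  exact exists_top hT hd h2 h3

/-- comparison of the weights, one direction -/
theorem wt_le_top (hT : ∀ t ∈ T, t.card = N) (hd : d + 1 ≤ N) (hQ : ∀ s, s.Nonempty → Wt T s ≤ Q)
    {s : Finset V} (hs : s.Nonempty) (hsd : s.card ≤ d + 1) :
    Wt T s ≤ Q * topDegree (skel T d hV) d s := by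
  by_cases hw : Wt T s = 0
  · rw [hw]; exact Nat.zero_le _
  obtain ⟨t, ht, hst⟩ := exists_top (hV := hV) hT hd hsd (Nat.pos_of_ne_zero hw)
  have h1 : 1 ≤ topDegree (skel T d hV) d s :=
    card_pos.2 ⟨t, mem_filter.2 ⟨ht, hst⟩⟩
  calc Wt T s ≤ Q := hQ s hs
    _ = Q * 1 := (mul_one _).symm
    _ ≤ _ := Nat.mul_le_mul_left _ h1

/-- comparison of the weights, the other direction -/
theorem top_le_wt (hT : ∀ t ∈ T, t.card = N) (s : Finset V) :
    topDegree (skel T d hV) d s ≤ 2 ^ N * Wt T s := by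
  unfold topDegree
  have h1 : (faceSet (skel T d hV) d).filter (fun t => s ⊆ t) ⊆
      (T.filter fun t => s ⊆ t).biUnion fun t => t.powerset := by
    intro u hu
    rw [mem_filter] at hu
    have h2 := ((mem_faceSet_skel le_rfl).1 hu.1).2
    obtain ⟨t, ht⟩ := card_pos.1 h2
    rw [mem_filter] at ht
    rw [mem_biUnion]
    exact ⟨t, mem_filter.2 ⟨ht.1, hu.2.trans ht.2⟩, mem_powerset.2 ht.2⟩
  refine (card_le_card h1).trans (card_biUnion_le.trans ?_)
  have h2 : ∀ t ∈ T.filter (fun t => s ⊆ t), t.powerset.card = 2 ^ N := fun t ht => by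
    rw [card_powerset, hT t (mem_filter.1 ht).1]
  rw [sum_congr rfl h2, sum_const, smul_eq_mul, mul_comm]
  rfl

/-- degree bound -/
theorem skel_degree (hT : ∀ t ∈ T, t.card = N) (hQ : ∀ s, s.Nonempty → Wt T s ≤ Q) (v : V) :
    topDegree (skel T d hV) d {v} ≤ 2 ^ N * Q :=
  (top_le_wt hT {v}).trans (Nat.mul_le_mul_left _ (hQ _ (singleton_nonempty v)))

/-- extension by zero -/
noncomputable def ext0 {K : AbstractSimplicialComplex V} {i : ℕ} (f : Cochain K i)
    (s : Finset V) : ZMod 2 :=
  if h : s ∈ faceSet K i then f ⟨s, h⟩ else 0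

/-- restriction of a cochain -/
def res (K : AbstractSimplicialComplex V) (i : ℕ) (f : Finset V → ZMod 2) : Cochain K i :=
  fun s => f s.1

theorem cochainNorm_res (K : AbstractSimplicialComplex V) (i : ℕ) (f : Finset V → ZMod 2) :
    cochainNorm K d i (res K i f) = ∑ s ∈ faceSet K i, if f s ≠ 0 then weight K d i s else 0 := by
  unfold cochainNorm res
  rw [sum_filter, ← sum_coe_sort (faceSet K i)]

/-- subfaces of codimension one -/
theorem sum_codim_one {i : ℕ} {t : Finset V} (ht : t.card = i + 2) (f : Finset V → ZMod 2) :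
    ∑ s ∈ t.powersetCard (i + 1), f s = ∑ x ∈ t, f (t.erase x) := by
  have h1 : t.powersetCard (i + 1) = t.image fun x => t.erase x := by
    ext s
    rw [mem_powersetCard, mem_image]
    constructor
    · rintro ⟨h1, h2⟩
      have h3 : (t \ s).card = 1 := by rw [card_sdiff_of_subset h1]; omega
      obtain ⟨x, hx⟩ := card_eq_one.1 h3
      have hxt : x ∈ t \ s := by rw [hx]; exact mem_singleton_self x
      rw [mem_sdiff] at hxt
      refine ⟨x, hxt.1, ?_⟩
      ext y
      rw [mem_erase]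
      constructor
      · rintro ⟨h4, h5⟩
        by_contra hys
        have : y ∈ t \ s := mem_sdiff.2 ⟨h5, hys⟩
        rw [hx, mem_singleton] at this
        exact h4 this
      · intro hy
        exact ⟨fun e => hxt.2 (e ▸ hy), h1 hy⟩
    · rintro ⟨x, hx, rfl⟩
      exact ⟨erase_subset _ _, by rw [card_erase_of_mem hx, ht]; rfl⟩
  rw [h1, sum_image]
  intro x hx y hy hxy
  by_contra hne
  have h2 : x ∈ t.erase y := mem_erase.2 ⟨hne, hx⟩
  have h3 : x ∈ t.erase x := by
    simp only at hxy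
    rw [hxy]; exact h2
  exact (notMem_erase x t) h3

theorem coboundary_res (i : ℕ) (hi : i + 1 ≤ d) (f : Finset V → ZMod 2) :
    coboundary (skel T d hV) i (res (skel T d hV) i f) = res (skel T d hV) (i + 1) (cob f) := by
  funext t
  show ∑ s : {s // s ∈ faceSet (skel T d hV) i} with s.1 ⊆ t.1, f s.1 = cob f t.1
  have ht := (mem_faceSet_skel hi).1 t.2
  have h1 : ∑ s : {s // s ∈ faceSet (skel T d hV) i} with s.1 ⊆ t.1, f s.1 =
      ∑ s ∈ t.1.powersetCard (i + 1), f s := by
    rw [sum_filter, sum_coe_sort (faceSet (skel T d hV) i) fun s => if s ⊆ t.1 then f s else 0,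
      ← sum_filter]
    refine sum_congr ?_ fun _ _ => rfl
    ext s
    rw [mem_filter, mem_powersetCard, mem_faceSet_skel (by omega)]
    constructor
    · rintro ⟨⟨h1, _⟩, h2⟩; exact ⟨h2, h1⟩
    · rintro ⟨h1, h2⟩
      exact ⟨⟨h2, lt_of_lt_of_le ht.2 (Wt_mono h1)⟩, h1⟩
  rw [h1, sum_codim_one (by rw [ht.1])]
  rfl

/-- every cochain is a restriction -/
theorem res_ext0 {K : AbstractSimplicialComplex V} {i : ℕ} (f : Cochain K i) :
    res K i (ext0 f) = f := by
  funext s
  unfold res ext0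
  rw [dif_pos s.2]

/-- coboundaries of all set functions are coboundaries of the complex -/
theorem res_cob_mem (i : ℕ) (hi : i ≤ d) (b : Finset V → ZMod 2) :
    res (skel T d hV) i (cob b) ∈ coboundaries (skel T d hV) i := by
  cases i with
  | zero =>
    show _ ∈ Submodule.span (ZMod 2) {fun _ => 1}
    rw [Submodule.mem_span_singleton]
    refine ⟨b ∅, ?_⟩
    funext s
    have hs := (mem_faceSet_skel (Nat.zero_le d)).1 s.2
    obtain ⟨x, hx⟩ := card_eq_one.1 hs.1
    show b ∅ • (1 : ZMod 2) = cob b s.1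
    unfold cob
    rw [hx]
    simp
  | succ i =>
    exact ⟨res (skel T d hV) i b, coboundary_res i hi b⟩

theorem faceSet_card_pos (hT : ∀ t ∈ T, t.card = N) (hd : d + 1 ≤ N) (hne : T.Nonempty) :
    0 < (faceSet (skel T d hV) d).card := by
  obtain ⟨t, ht⟩ := hne
  obtain ⟨u, h1, _⟩ := exists_top (hV := hV) hT hd (s := ∅) (by simp)
    (by rw [Wt_empty]; exact card_pos.2 ⟨t, ht⟩)
  exact card_pos.2 ⟨u, h1⟩

/-- **The skeleton is a coboundary expander.** -/
theorem skel_expander (hT : ∀ t ∈ T, t.card = N) (hd : d + 1 ≤ N) (hne : T.Nonempty)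
    (hQ : ∀ s : Finset V, s.Nonempty → Wt T s ≤ Q) (hQ0 : 0 < Q) {K : ℝ} (hK : 0 < K)
    (hexp : ∀ i, 1 ≤ i → i ≤ d → ∀ f : Finset V → ZMod 2, ∃ b : Finset V → ZMod 2,
      (nrm T i (fun r => f r + cob b r) : ℝ) ≤ K * nrm T (i + 1) (cob f)) :
    IsCoboundaryExpander (skel T d hV) d (1 / (2 ^ (N + d + 1) * Q ^ 2 * K)) := by
  intro i hi f
  rw [← res_ext0 f]
  generalize ext0 f = F
  clear f
  set X := skel T d hV with hX
  obtain ⟨b, hb⟩ := hexp (i + 1) (by omega) (by omega) F
  have hM : (0 : ℝ) < (faceSet X d).card := by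
    exact_mod_cast faceSet_card_pos (hV := hV) hT hd hne
  have hc1 : (0 : ℝ) < (d + 1).choose (i + 1) := by
    exact_mod_cast Nat.choose_pos (by omega)
  have hc2 : (0 : ℝ) < (d + 1).choose (i + 1 + 1) := by
    exact_mod_cast Nat.choose_pos (by omega)
  have hQr : (0 : ℝ) < Q := by exact_mod_cast hQ0
  -- lower bound of the norm of the coboundary
  have hlow : (nrm T (i + 2) (cob F) : ℝ) / (Q * ((d + 1).choose (i + 1 + 1) * (faceSet X d).card)) ≤
      cochainNorm X d (i + 1) (coboundary X i (res X i F)) := by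
    rw [hX, coboundary_res i (by omega), cochainNorm_res, ← hX]
    unfold nrm weight
    push_cast
    rw [sum_div]
    have hsub : faceSet X (i + 1) ⊆ powersetCard (i + 2) univ := by
      intro s hs
      rw [mem_powersetCard_univ]
      exact ((mem_faceSet_skel (by omega)).1 hs).1
    rw [← sum_subset hsub]
    · refine sum_le_sum fun s hs => ?_
      have hs' := (mem_faceSet_skel (hV := hV) (by omega : i + 1 ≤ d)).1 hs
      by_cases h0 : cob F s = 0
      · simp [h0]
      · rw [if_pos h0, if_pos h0]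
        have h1 := wt_le_top (hV := hV) hT hd hQ (s := s) (card_pos.1 (by omega)) (by omega)
        have h2 : (Wt T s : ℝ) ≤ Q * topDegree X d s := by exact_mod_cast h1
        rw [div_le_div_iff₀ (by positivity) (by positivity)]
        calc (Wt T s : ℝ) * (((d + 1).choose (i + 1 + 1) : ℝ) * (faceSet X d).card)
            ≤ (Q * topDegree X d s) * (((d + 1).choose (i + 1 + 1) : ℝ) * (faceSet X d).card) :=
              mul_le_mul_of_nonneg_right h2 (by positivity)
          _ = _ := by ring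
    · intro s hs hs'
      rw [mem_powersetCard_univ] at hs
      have : Wt T s = 0 := by
        by_contra h0
        exact hs' ((mem_faceSet_skel (hV := hV) (by omega : i + 1 ≤ d)).2
          ⟨hs, Nat.pos_of_ne_zero h0⟩)
      rw [this]; simp
  -- upper bound of the distance
  have hup : cochainDist X d i (res X i F) (coboundaries X i) ≤
      (2 ^ N * nrm T (i + 1) (fun r => F r + cob b r) : ℝ) /
        ((d + 1).choose (i + 1) * (faceSet X d).card) := by
    have hmem := res_cob_mem (T := T) (d := d) (hV := hV) i (by omega) b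
    have h1 : cochainDist X d i (res X i F) (coboundaries X i) ≤
        cochainNorm X d i (res X i F - res X i (cob b)) := by
      unfold cochainDist
      refine ciInf_le ⟨0, ?_⟩ (⟨res X i (cob b), hmem⟩ : coboundaries X i)
      rintro _ ⟨a, rfl⟩
      unfold cochainNorm weight
      exact sum_nonneg fun _ _ => by positivity
    refine h1.trans ?_
    have h2 : res X i F - res X i (cob b) = res X i (fun r => F r + cob b r) := by
      funext s
      show F s.1 - cob b s.1 = F s.1 + cob b s.1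
      rw [sub_eq_add_neg, CharTwo.neg_eq]
    rw [h2, cochainNorm_res]
    unfold nrm weight
    push_cast
    rw [mul_sum, sum_div]
    have hsub : faceSet X i ⊆ powersetCard (i + 1) univ := by
      intro s hs
      rw [mem_powersetCard_univ]
      exact ((mem_faceSet_skel (by omega)).1 hs).1
    refine le_trans ?_ (sum_le_sum_of_subset_of_nonneg hsub fun s _ _ => by positivity)
    refine sum_le_sum fun s hs => ?_
    by_cases h0 : F s + cob b s = 0
    · simp [h0]
    · rw [if_pos h0, if_pos h0]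
      have h3 := top_le_wt (hV := hV) (d := d) hT s
      have h4 : (topDegree X d s : ℝ) ≤ 2 ^ N * Wt T s := by exact_mod_cast h3
      exact div_le_div_of_nonneg_right h4 (by positivity)
  -- combination
  have hb' : (nrm T (i + 1) (fun r => F r + cob b r) : ℝ) ≤ K * nrm T (i + 2) (cob F) := hb
  have hcc : ((d + 1).choose (i + 1 + 1) : ℝ) ≤ 2 ^ (d + 1) * (d + 1).choose (i + 1) := by
    have h1 : (d + 1).choose (i + 1 + 1) ≤ 2 ^ (d + 1) := Nat.choose_le_two_pow _ _
    have h2 : 1 ≤ (d + 1).choose (i + 1) := Nat.choose_pos (by omega)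
    calc ((d + 1).choose (i + 1 + 1) : ℝ) ≤ 2 ^ (d + 1) := by exact_mod_cast h1
      _ = 2 ^ (d + 1) * 1 := (mul_one _).symm
      _ ≤ _ := by
        refine mul_le_mul_of_nonneg_left ?_ (by positivity)
        exact_mod_cast h2
  have hE : (0 : ℝ) < 2 ^ (N + d + 1) * Q ^ 2 * K := by positivity
  rw [one_div, inv_mul_le_iff₀ hE]
  refine hup.trans ?_
  have hn0 : (0 : ℝ) ≤ nrm T (i + 2) (cob F) := Nat.cast_nonneg _
  calc (2 ^ N * nrm T (i + 1) (fun r => F r + cob b r) : ℝ) /
        ((d + 1).choose (i + 1) * (faceSet X d).card)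
      ≤ (2 ^ N * (K * nrm T (i + 2) (cob F))) / ((d + 1).choose (i + 1) * (faceSet X d).card) := by
        refine div_le_div_of_nonneg_right ?_ (by positivity)
        exact mul_le_mul_of_nonneg_left hb' (by positivity)
    _ ≤ 2 ^ (N + d + 1) * Q ^ 2 * K * (nrm T (i + 2) (cob F) /
          (Q * ((d + 1).choose (i + 1 + 1) * (faceSet X d).card))) := by
        rw [← mul_div_assoc, div_le_div_iff₀ (by positivity) (by positivity)]
        have hQ1 : (1 : ℝ) ≤ Q := by exact_mod_cast hQ0
        have e1 : (2 : ℝ) ^ (N + d + 1) = 2 ^ N * 2 ^ (d + 1) := by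
          rw [add_assoc, pow_add]
        rw [e1]
        have h5 := mul_le_mul_of_nonneg_left hcc
          (by positivity : (0 : ℝ) ≤ 2 ^ N * K * nrm T (i + 2) (cob F) * Q * (faceSet X d).card)
        have h6 : (0 : ℝ) ≤ 2 ^ N * K * nrm T (i + 2) (cob F) * Q * (faceSet X d).card *
            (2 ^ (d + 1) * (d + 1).choose (i + 1)) := by positivity
        have h7 := mul_le_mul_of_nonneg_left hQ1 h6
        nlinarith
    _ ≤ _ := mul_le_mul_of_nonneg_left hlow hE.le

end Vale.Agent.P067A
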