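import Vale.Agent.P067A.Col

/-!
# P067: the spectral hypothesis `SP` from coloured correlations
-/

set_option linter.unusedSectionVars false

namespace Vale.Agent.P067A

open Finset

variable {V : Type*} [Fintype V] [DecidableEq V]

/-- subfaces of a typed top face -/
theorem Typed.pr_card {I : Finset ℕ} {ty : V → ℕ} {T : Finset (Finset V)} (h : Typed I ty T)
    {J : Finset ℕ} (hJ : J ⊆ I) {t : Finset V} (ht : t ∈ T) :
    (pr ty J t).card = J.card ∧ (pr ty J t).image ty = J := by
  have h1 : (pr ty J t).image ty = J := by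
    ext j
    simp only [pr, mem_image, mem_filter]
    constructor
    · rintro ⟨x, ⟨_, h2⟩, rfl⟩; exact h2
    · intro hj
      have h2 := hJ hj
      rw [← h.img t ht] at h2
      obtain ⟨x, hx, hxj⟩ := mem_image.1 h2
      exact ⟨x, ⟨hx, by rw [hxj]; exact hj⟩, hxj⟩
  refine ⟨?_, h1⟩
  have h2 : Set.InjOn ty (pr ty J t : Set V) := (h.inj t ht).mono (by
    intro x hx
    exact (mem_filter.1 hx).1)
  rw [← card_image_of_injOn h2, h1]

/-- the norm as a sum over types -/
theorem nrm_typed {I : Finset ℕ} {ty : V → ℕ} {T : Finset (Finset V)} (h : Typed I ty T)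
    (m : ℕ) (f : Finset V → ZMod 2) :
    nrm T m f = ∑ J ∈ powersetCard m I, ∑ t ∈ T, if f (pr ty J t) ≠ 0 then 1 else 0 := by
  rw [sum_comm]
  unfold nrm Wt
  have e1 : ∀ r : Finset V, (if f r ≠ 0 then (T.filter fun t => r ⊆ t).card else 0) =
      ∑ t ∈ T, if r ⊆ t then (if f r ≠ 0 then 1 else 0) else 0 := by
    intro r
    rw [card_filter]
    split_ifs with h1
    · rfl
    · simp
  simp only [e1]
  rw [sum_comm]
  refine sum_congr rfl fun t ht => ?_
  rw [← sum_filter]
  refine sum_bij' (fun r _ => r.image ty) (fun J _ => pr ty J t) ?_ ?_ ?_ ?_ ?_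
  · intro r hr
    rw [mem_filter, mem_powersetCard_univ] at hr
    rw [mem_powersetCard]
    refine ⟨?_, ?_⟩
    · rw [← h.img t ht]; exact image_subset_image hr.2
    · rw [card_image_of_injOn ((h.inj t ht).mono (by exact_mod_cast hr.2)), hr.1]
  · intro J hJ
    rw [mem_powersetCard] at hJ
    rw [mem_filter, mem_powersetCard_univ]
    exact ⟨by rw [(h.pr_card hJ.1 ht).1, hJ.2], filter_subset _ _⟩
  · intro r hr
    rw [mem_filter, mem_powersetCard_univ] at hr
    ext x
    simp only [pr, mem_filter, mem_image]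
    constructor
    · rintro ⟨hx, y, hy, hxy⟩
      have := h.inj t ht (hr.2 hy) hx hxy
      exact this ▸ hy
    · intro hx
      exact ⟨hr.2 hx, x, hx, rfl⟩
  · intro J hJ
    rw [mem_powersetCard] at hJ
    exact (h.pr_card hJ.1 ht).2
  · intro r hr
    rw [mem_filter, mem_powersetCard_univ] at hr
    have : pr ty (r.image ty) t = r := by
      ext x
      simp only [pr, mem_filter, mem_image]
      constructor
      · rintro ⟨hx, y, hy, hxy⟩
        have := h.inj t ht (hr.2 hy) hx hxy
        exact this ▸ hy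
      · intro hx
        exact ⟨hr.2 hx, x, hx, rfl⟩
    rw [this]

/-- vertices without a type in `I` have weight zero -/
theorem Typed.wt_zero {I : Finset ℕ} {ty : V → ℕ} {T : Finset (Finset V)} (h : Typed I ty T)
    {x : V} (hx : ty x ∉ I) : Wt T {x} = 0 := by
  unfold Wt
  rw [card_eq_zero, filter_eq_empty_iff]
  intro t ht hxt
  apply hx
  rw [← h.img t ht]
  exact mem_image_of_mem _ (singleton_subset_iff.1 hxt)

/-- sums over vertices, by types -/
theorem sum_by_type {I : Finset ℕ} {ty : V → ℕ} (F : V → ℝ) (hF : ∀ x, ty x ∉ I → F x = 0) :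
    ∑ x, F x = ∑ i ∈ I, ∑ x ∈ univ.filter (fun x => ty x = i), F x := by
  rw [← sum_filter_add_sum_filter_not univ (fun x => ty x ∈ I)]
  have h0 : ∑ x ∈ univ.filter (fun x => ¬ ty x ∈ I), F x = 0 :=
    sum_eq_zero fun x hx => hF x (mem_filter.1 hx).2
  rw [h0, add_zero, ← sum_fiberwise_of_maps_to (g := ty) (t := I) (fun x hx => (mem_filter.1 hx).2)]
  refine sum_congr rfl fun i hi => sum_congr ?_ fun _ _ => rfl
  ext x
  simp only [mem_filter, mem_univ, true_and]
  constructor
  · rintro ⟨_, h⟩; exact h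
  · intro h; exact ⟨by rw [h]; exact hi, h⟩

/-- **The spectral hypothesis from coloured correlations.** -/
theorem sp_of_col {I : Finset ℕ} {ty : V → ℕ} {T : Finset (Finset V)} (h : Typed I ty T)
    {m : ℕ} (hm : 1 ≤ m) {rho : ℝ} (hrho : 0 ≤ rho)
    (hcol : ∀ i ∈ I, ∀ J ⊆ I, i ∉ J → J.card = m → Col ty T i J rho) :
    SP T m (2 ^ m) (rho * (I.card * 2 ^ I.card)) := by
  classical
  intro f
  rcases T.eq_empty_or_nonempty with hT0 | hT0
  · subst hT0
    have : cor (∅ : Finset (Finset V)) m f = 0 := by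
      unfold cor
      refine sum_eq_zero fun x _ => ?_
      rw [nrm_lk_zero (by simp [Wt])]
      simp
    rw [this]
    positivity
  have hcard : (0 : ℝ) < T.card := by exact_mod_cast card_pos.2 hT0
  set n : V → ℝ := fun x => (nrm (lk T {x}) (m - 1) (loc f {x}) : ℝ) with hn
  set hx : V → ℝ := fun x => n x / Wt T {x} with hhx
  have hn0 : ∀ x, 0 ≤ n x := fun x => Nat.cast_nonneg _
  have hh0 : ∀ x, 0 ≤ hx x := fun x => div_nonneg (hn0 x) (Nat.cast_nonneg _)
  have hnz : ∀ x, Wt T {x} = 0 → n x = 0 := fun x h0 => by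
    simp only [hn]; rw [nrm_lk_zero h0]; simp
  set H : Finset V → ℝ := fun u => ∑ x ∈ u, hx x with hH
  set ind : Finset V → ℝ := fun u => if f u ≠ 0 then 1 else 0 with hind
  -- the neighbourhoods
  have hg : ∀ x, ty x ∈ I → (nrm (lk T {x}) m f : ℝ) =
      ∑ J ∈ powersetCard m (I.erase (ty x)), ∑ t ∈ T.filter (fun t => {x} ⊆ t),
        ind (pr ty J t) := by
    intro x _
    have h1 := nrm_typed (h.lk {x}) m f
    rw [image_singleton, sdiff_singleton_eq_erase] at h1
    rw [h1]
    push_cast
    refine sum_congr rfl fun J hJ => ?_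
    rw [sum_lk]
    refine sum_congr rfl fun t _ => ?_
    have : ty x ∉ J := fun e => by
      have := (mem_powersetCard.1 hJ).1 e
      exact (notMem_erase _ _) this
    rw [pr_sdiff this]
  -- sums of functions of the vertex of type `i`
  have hvert : ∀ i ∈ I, ∀ (G : Finset V → ℝ) (e : ℝ → ℝ),
      ∑ t ∈ T, e (H (pr ty {i} t)) * G t = ∑ x ∈ univ.filter (fun x => ty x = i),
        e (hx x) * ∑ t ∈ T.filter (fun t => {x} ⊆ t), G t := by
    intro i hi G e
    rw [h.sum_type hi]
    refine sum_congr rfl fun x hxi => ?_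
    rw [mem_filter] at hxi
    rw [mul_sum]
    refine sum_congr rfl fun t ht => ?_
    rw [mem_filter] at ht
    obtain ⟨y, hy, hyi, hpr⟩ := h.sing hi ht.1
    have : y = x := h.inj t ht.1 hy (singleton_subset_iff.1 ht.2) (hyi.trans hxi.2.symm)
    rw [hpr, this]
    simp only [hH, sum_singleton]
  -- the correlation as a sum
  have hcor : cor T m f = ∑ i ∈ I, ∑ J ∈ powersetCard m (I.erase i),
      ∑ t ∈ T, H (pr ty {i} t) * ind (pr ty J t) := by
    unfold cor
    rw [sum_by_type (I := I) (ty := ty) _ (fun x hx => by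
      rw [nrm_lk_zero (h.wt_zero hx)]; simp)]
    refine sum_congr rfl fun i hi => ?_
    have e1 : ∀ x ∈ univ.filter (fun x => ty x = i),
        (nrm (lk T {x}) (m - 1) (loc f {x}) : ℝ) * nrm (lk T {x}) m f / Wt T {x} =
        ∑ J ∈ powersetCard m (I.erase i), hx x *
          ∑ t ∈ T.filter (fun t => {x} ⊆ t), ind (pr ty J t) := by
      intro x hxi
      rw [mem_filter] at hxi
      rw [hg x (by rw [hxi.2]; exact hi), hxi.2, ← mul_sum]
      simp only [hhx, hn]
      ring
    rw [sum_congr rfl e1, sum_comm]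
    refine sum_congr rfl fun J _ => ?_
    exact (hvert i hi (fun t => ind (pr ty J t)) id).symm
  -- the pieces
  set N : ℝ := (nrm T m f : ℝ) with hN
  set NJ : Finset ℕ → ℝ := fun J => ∑ t ∈ T, ind (pr ty J t) with hNJ
  have hNJ0 : ∀ J, 0 ≤ NJ J := fun J => sum_nonneg fun t _ => by
    simp only [hind]; split_ifs <;> norm_num
  have hNsum : ∑ J ∈ powersetCard m I, NJ J = N := by
    rw [hN, nrm_typed h m f]
    push_cast
    rfl
  have hNJle : ∀ J ∈ powersetCard m I, NJ J ≤ N := by
    intro J hJ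
    rw [← hNsum]
    exact single_le_sum (fun J _ => hNJ0 J) hJ
  have hN0 : 0 ≤ N := Nat.cast_nonneg _
  set Hi : ℕ → ℝ := fun i => ∑ t ∈ T, H (pr ty {i} t) with hHi
  have hH0 : ∀ u, 0 ≤ H u := fun u => sum_nonneg fun x _ => hh0 x
  have hHi0 : ∀ i, 0 ≤ Hi i := fun i => sum_nonneg fun t _ => hH0 _
  have hHisum : ∑ i ∈ I, Hi i ≤ 2 ^ m * N := by
    have e1 : ∀ i ∈ I, Hi i = ∑ x ∈ univ.filter (fun x => ty x = i), n x := by
      intro i hi
      have := hvert i hi (fun _ => 1) id
      simp only [id, mul_one] at this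
      simp only [hHi]
      rw [this]
      refine sum_congr rfl fun x _ => ?_
      rw [sum_const, nsmul_eq_mul, mul_one]
      simp only [hhx]
      by_cases h0 : Wt T {x} = 0
      · rw [hnz x h0]; simp
      · have h1 : (Wt T {x} : ℝ) ≠ 0 := by exact_mod_cast h0
        show n x / (Wt T {x} : ℝ) * (Wt T {x} : ℝ) = n x
        field_simp
    rw [sum_congr rfl e1, ← sum_by_type (I := I) (ty := ty) n (fun x hx => hnz x (h.wt_zero hx))]
    have h1 := sum_nrm_le T m 1 hm f
    rw [powersetCard_one, sum_map] at h1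
    exact h1
  have hHsq : ∀ i ∈ I, ∑ t ∈ T, H (pr ty {i} t) ^ 2 ≤ sq1 T m f := by
    intro i hi
    have h1 := hvert i hi (fun _ => 1) (fun z => z ^ 2)
    simp only [mul_one] at h1
    rw [h1]
    unfold sq1
    have e1 : ∀ x, hx x ^ 2 * ∑ t ∈ T.filter (fun t => {x} ⊆ t), (1 : ℝ) =
        (nrm (lk T {x}) (m - 1) (loc f {x}) : ℝ) ^ 2 / Wt T {x} := by
      intro x
      rw [sum_const, nsmul_eq_mul, mul_one]
      by_cases h0 : Wt T {x} = 0
      · have := hnz x h0
        simp only [hhx]
        rw [this]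
        simp only [hn] at this
        rw [this]
        simp
      · have h1 : (Wt T {x} : ℝ) ≠ 0 := by exact_mod_cast h0
        simp only [hhx, hn]
        show (_ / (Wt T {x} : ℝ)) ^ 2 * (Wt T {x} : ℝ) = _
        field_simp
    simp only [e1]
    exact sum_le_sum_of_subset_of_nonneg (filter_subset _ _) fun x _ _ => by positivity
  have hS0 := sq1_nonneg T m f
  -- each pair of types
  have hpair : ∀ i ∈ I, ∀ J ∈ powersetCard m (I.erase i),
      ∑ t ∈ T, H (pr ty {i} t) * ind (pr ty J t) ≤
        Hi i * NJ J / T.card + rho * (Real.sqrt N * Real.sqrt (sq1 T m f)) := by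
    intro i hi J hJ
    rw [mem_powersetCard] at hJ
    have hiJ : i ∉ J := fun e => (notMem_erase i I) (hJ.1 e)
    have hJI : J ⊆ I := hJ.1.trans (erase_subset _ _)
    have h1 := sum_mul_center T hT0 (fun t => H (pr ty {i} t)) (fun t => ind (pr ty J t))
    have h2 := hcol i hi J hJI hiJ hJ.2
      (fun u => H u - avg T fun t => H (pr ty {i} t))
      (fun u => ind u - avg T fun t => ind (pr ty J t))
      (sum_center T hT0 _) (sum_center T hT0 _)
    rw [h1]
    refine add_le_add le_rfl (h2.trans (mul_le_mul_of_nonneg_left ?_ hrho))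
    rw [mul_comm (Real.sqrt N)]
    refine mul_le_mul (Real.sqrt_le_sqrt ?_) (Real.sqrt_le_sqrt ?_) (Real.sqrt_nonneg _)
      (Real.sqrt_nonneg _)
    · exact (sum_center_sq_le T _).trans (hHsq i hi)
    · refine (sum_center_sq_le T _).trans ?_
      refine le_trans (le_of_eq ?_) (hNJle J (mem_powersetCard.2 ⟨hJI, hJ.2⟩))
      refine sum_congr rfl fun t _ => ?_
      simp only [hind]; split_ifs <;> norm_num
  rw [hcor]
  calc ∑ i ∈ I, ∑ J ∈ powersetCard m (I.erase i), ∑ t ∈ T, H (pr ty {i} t) * ind (pr ty J t)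
      ≤ ∑ i ∈ I, ∑ J ∈ powersetCard m (I.erase i),
          (Hi i * NJ J / T.card + rho * (Real.sqrt N * Real.sqrt (sq1 T m f))) :=
        sum_le_sum fun i hi => sum_le_sum fun J hJ => hpair i hi J hJ
    _ ≤ ∑ i ∈ I, (Hi i * N / T.card +
          2 ^ I.card * (rho * (Real.sqrt N * Real.sqrt (sq1 T m f)))) := by
        refine sum_le_sum fun i hi => ?_
        rw [sum_add_distrib]
        have hsub : powersetCard m (I.erase i) ⊆ powersetCard m I :=
          powersetCard_mono (erase_subset _ _)
        refine add_le_add ?_ ?_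
        · rw [← sum_div, ← mul_sum]
          refine div_le_div_of_nonneg_right ?_ hcard.le
          refine mul_le_mul_of_nonneg_left ?_ (hHi0 i)
          rw [← hNsum]
          exact sum_le_sum_of_subset_of_nonneg hsub fun J _ _ => hNJ0 J
        · rw [sum_const, nsmul_eq_mul]
          refine mul_le_mul_of_nonneg_right ?_ (by positivity)
          have h1 : (powersetCard m (I.erase i)).card ≤ 2 ^ I.card := by
            calc _ ≤ (I.powerset).card := card_le_card (hsub.trans fun J hJ =>
                  mem_powerset.2 (mem_powersetCard.1 hJ).1)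
              _ = _ := card_powerset _
          exact_mod_cast h1
    _ = (∑ i ∈ I, Hi i) * N / T.card +
          rho * (I.card * 2 ^ I.card) * (Real.sqrt N * Real.sqrt (sq1 T m f)) := by
        rw [sum_add_distrib, sum_const, nsmul_eq_mul, ← sum_div, ← sum_mul]
        ring
    _ ≤ _ := by
        refine add_le_add ?_ le_rfl
        rw [← mul_div_assoc]
        refine div_le_div_of_nonneg_right ?_ hcard.le
        calc (∑ i ∈ I, Hi i) * N ≤ 2 ^ m * N * N := mul_le_mul_of_nonneg_right hHisum hN0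
          _ = _ := by ring

end Vale.Agent.P067A
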