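import Vale.Agent.P067A.Trick
import Vale.Agent.P067A.SpCol
import Vale.Agent.P067A.Skel

/-!
# P067: the local to global theorem (assembly of part A)
-/

set_option linter.unusedSectionVars false

namespace Vale.Agent.P067A

open Finset

open Vale.Agent.P067 (faceSet IsPure topDegree weight Cochain cochainNorm coboundary cocycles
  coboundaries cochainDist IsCoboundaryExpander)

section

variable {V : Type*} [Fintype V] [DecidableEq V]

theorem SP.mono {T : Finset (Finset V)} {m : ℕ} {C C' lam lam' : ℝ} (h : SP T m C lam)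
    (hC : C ≤ C') (hl : lam ≤ lam') : SP T m C' lam' := by
  intro f
  refine (h f).trans (add_le_add ?_ ?_)
  · exact mul_le_mul_of_nonneg_right hC (by positivity)
  · exact mul_le_mul_of_nonneg_right hl (by positivity)

theorem Col.mono {ty : V → ℕ} {T : Finset (Finset V)} {i : ℕ} {J : Finset ℕ} {rho rho' : ℝ}
    (h : Col ty T i J rho) (hr : rho ≤ rho') : Col ty T i J rho' := by
  intro F G hF hG
  exact (h F G hF hG).trans (mul_le_mul_of_nonneg_right hr (by positivity))

theorem lk_eq_empty {T : Finset (Finset V)} {s : Finset V} (h : Wt T s = 0) : lk T s = ∅ := by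
  rw [← card_eq_zero, lk_card, h]

/-- types of the link -/
theorem Typed.card_lk {I : Finset ℕ} {ty : V → ℕ} {T : Finset (Finset V)} (h : Typed I ty T)
    {s : Finset V} (hs : 0 < Wt T s) : (I \ s.image ty).card + s.card = I.card := by
  unfold Wt at hs
  obtain ⟨t, ht⟩ := card_pos.1 hs
  rw [mem_filter] at ht
  have h1 : (s.image ty).card = s.card :=
    card_image_of_injOn ((h.inj t ht.1).mono (by exact_mod_cast ht.2))
  have h2 : s.image ty ⊆ I := by
    rw [← h.img t ht.1]; exact image_subset_image ht.2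
  rw [card_sdiff_of_subset h2, h1]
  have h3 := card_le_card h2
  rw [h1] at h3
  omega

/-- **The spectral hypothesis in all links.** -/
theorem sp_all {I : Finset ℕ} {ty : V → ℕ} {T : Finset (Finset V)} (h : Typed I ty T)
    (hc : ∀ s : Finset V, s.card + 3 ≤ I.card → Conn (lk T s)) {lam : ℝ} (h0 : 0 ≤ lam)
    (h1 : 2 * I.card * lam ≤ 1)
    (hl : ∀ s : Finset V, s.card + 2 = I.card → ∀ i ∈ I \ s.image ty, ∀ j ∈ I \ s.image ty,
      i ≠ j → Col ty (lk T s) i {j} lam) (s : Finset V) (m : ℕ) (hm : 1 ≤ m) :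
    SP (lk T s) m (2 ^ m) (2 * (I.card : ℝ) ^ 3 * 2 ^ I.card * lam) := by
  set N := I.card with hN
  -- gaps
  have hgap2 : ∀ s : Finset V, s.card + 2 = N → Gap (lk T s) 2 lam := by
    intro s hs
    rcases Nat.eq_zero_or_pos (Wt T s) with hw | hw
    · rw [lk_eq_empty hw]; intro f _; simp
    · have h2 := h.card_lk hw
      have h3 : (I \ s.image ty).card = 2 := by omega
      obtain ⟨i, j, hij, hIJ⟩ := card_eq_two.1 h3
      have h4 := h.lk s
      rw [hIJ] at h4
      exact gap_two h4 hij h0 (hl s hs i (by rw [hIJ]; simp) j (by rw [hIJ]; simp) hij)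
  have hgap := trickle_all (T := T) (N := N) (fun t ht => h.card ht) hc h0 h1 hgap2
  have hN0 : (0 : ℝ) ≤ N := Nat.cast_nonneg _
  -- coloured correlations of two vertices
  have hcol2 : ∀ s : Finset V, ∀ i ∈ I \ s.image ty, ∀ j ∈ I \ s.image ty, i ≠ j →
      Col ty (lk T s) i {j} (2 * N * lam) := by
    intro s i hi j hj hij
    rcases Nat.eq_zero_or_pos (Wt T s) with hw | hw
    · rw [lk_eq_empty hw]; intro F G _ _; simp
    · have h2 := h.card_lk hw
      have h3 : 2 ≤ (I \ s.image ty).card := by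
        have : ({i, j} : Finset ℕ) ⊆ I \ s.image ty := by
          intro x hx
          rw [mem_insert, mem_singleton] at hx
          rcases hx with rfl | rfl
          · exact hi
          · exact hj
        have h4 := card_le_card this
        rwa [card_pair hij] at h4
      have h4 := hgap s (by omega)
      have e : N - s.card = (I \ s.image ty).card := by omega
      rw [e] at h4
      refine (gap_col (h.lk s) hi hj hij h4).mono ?_
      have h5 : ((I \ s.image ty).card : ℝ) ≤ N := by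
        have : (I \ s.image ty).card ≤ N := by omega
        exact_mod_cast this
      nlinarith
  -- sets of types
  have h2N : 0 ≤ 2 * (N : ℝ) * lam := by positivity
  have hcolJ : ∀ i ∈ I \ s.image ty, ∀ J ⊆ I \ s.image ty, i ∉ J → J.card = m →
      Col ty (lk T s) i J (N * (2 * N * lam)) := by
    intro i hi J hJ hiJ _
    refine (col_set h2N J (I \ s.image ty) (lk T s) (h.lk s) ?_ i hi hiJ hJ).mono ?_
    · intro u i' hi' j' hj' hij'
      rcases Nat.eq_zero_or_pos (Wt (lk T s) u) with hw | hw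
      · rw [lk_eq_empty hw]; intro F G _ _; simp
      · obtain ⟨hd, hw'⟩ := Wt_lk_pos hw
        have e : lk (lk T s) u = lk T (s ∪ u) := by
          unfold lk
          rw [filter_image, image_image, filter_filter]
          ext z
          simp only [mem_image, mem_filter, Function.comp]
          constructor
          · rintro ⟨t, ⟨ht, h1, h2⟩, rfl⟩
            exact ⟨t, ⟨ht, union_subset h1 (h2.trans sdiff_subset)⟩, by
              ext y; simp only [mem_sdiff, mem_union]; tauto⟩
          · rintro ⟨t, ⟨ht, h1⟩, rfl⟩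
            refine ⟨t, ⟨ht, subset_union_left.trans h1, ?_⟩, ?_⟩
            · intro y hy
              exact mem_sdiff.2 ⟨h1 (mem_union_right _ hy), (disjoint_left.1 hd) hy⟩
            · ext y; simp only [mem_sdiff, mem_union]; tauto
        rw [e]
        have e2 : (I \ s.image ty) \ u.image ty = I \ (s ∪ u).image ty := by
          rw [image_union]
          ext y; simp only [mem_sdiff, mem_union]; tauto
        rw [e2] at hi' hj'
        exact hcol2 (s ∪ u) i' hi' j' hj' hij'
    · refine mul_le_mul_of_nonneg_right ?_ h2N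
      have h3 : J.card ≤ N := card_le_card (hJ.trans sdiff_subset)
      exact_mod_cast h3
  have hsp := sp_of_col (h.lk s) hm (rho := N * (2 * N * lam)) (by positivity) hcolJ
  refine hsp.mono le_rfl ?_
  have h3 : (I \ s.image ty).card ≤ N := card_le_card sdiff_subset
  have h4 : ((I \ s.image ty).card : ℝ) ≤ N := by exact_mod_cast h3
  have h5 : (2 : ℝ) ^ (I \ s.image ty).card ≤ 2 ^ N := pow_le_pow_right₀ (by norm_num) h3
  have h6 : ((I \ s.image ty).card : ℝ) * 2 ^ (I \ s.image ty).card ≤ N * 2 ^ N :=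
    mul_le_mul h4 h5 (by positivity) hN0
  calc (N : ℝ) * (2 * N * lam) * ((I \ s.image ty).card * 2 ^ (I \ s.image ty).card)
      ≤ (N : ℝ) * (2 * N * lam) * (N * 2 ^ N) := mul_le_mul_of_nonneg_left h6 (by positivity)
    _ = _ := by ring

end

/-- **Part A.** Local to global: `lam0` depends only on `d`, `N`, `β`; the expansion constant only
on `d`, `N`, `β`, `Q`. -/
theorem partA (d N : ℕ) (hdN : d + 2 ≤ N) (β : ℝ) (hβ : 0 < β) :
    ∃ lam0 : ℝ, 0 < lam0 ∧ ∀ Q : ℕ, ∃ K : ℝ, 0 < K ∧
      ∀ (V : Type) [Fintype V] [DecidableEq V] (I : Finset ℕ) (ty : V → ℕ)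
        (T : Finset (Finset V)), I.card = N → Typed I ty T →
        (∀ s : Finset V, s.Nonempty → Wt T s ≤ Q) →
        (∀ s : Finset V, s.card + 3 ≤ N → Conn (lk T s)) →
        (∀ s : Finset V, s.card + 2 = N → ∀ i ∈ I \ s.image ty, ∀ j ∈ I \ s.image ty,
          i ≠ j → Col ty (lk T s) i {j} lam0) →
        (∀ s : Finset V, s.Nonempty → ∀ k, s.card < k → k ≤ d + 1 →
          CE (lk T s) (k - s.card) β) →
        (∀ i, 1 ≤ i → i ≤ d → Van T i) →
        ∀ i, 1 ≤ i → i ≤ d → ∀ f : Finset V → ZMod 2, ∃ b : Finset V → ZMod 2,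
          (nrm T i (fun r => f r + cob b r) : ℝ) ≤ K * nrm T (i + 1) (cob f) := by
  -- constants
  set C : ℝ := 2 ^ N with hC
  set KM : ℝ := 1 + ∑ i ∈ range (d + 1), KK β C (i + 1) i with hKM
  have hC1 : (1 : ℝ) ≤ C := one_le_pow₀ (by norm_num)
  have hKK0 : ∀ k j, 0 ≤ KK β C k j := fun k j => KK_nonneg hβ (by linarith) k j
  have hKM1 : 1 ≤ KM := by
    have : 0 ≤ ∑ i ∈ range (d + 1), KK β C (i + 1) i := sum_nonneg fun i _ => hKK0 _ _
    linarith
  have hKMi : ∀ i, i ≤ d → KK β C (i + 1) i ≤ KM := by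
    intro i hi
    have : KK β C (i + 1) i ≤ ∑ i ∈ range (d + 1), KK β C (i + 1) i :=
      single_le_sum (f := fun i => KK β C (i + 1) i) (fun i _ => hKK0 _ _)
        (mem_range.2 (by omega))
    linarith
  set μ : ℝ := 1 / (8 * C * KM) with hμ
  have hμ0 : 0 < μ := by positivity
  have hμ1 : μ ≤ 1 := by
    rw [hμ, div_le_one (by positivity)]
    nlinarith
  set Lam : ℝ := μ / 2 ^ (d + 3) with hLam
  have hLam0 : 0 < Lam := by positivity
  have h2d : (1 : ℝ) ≤ 2 ^ (d + 3) := one_le_pow₀ (by norm_num)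
  have hLamμ : Lam ≤ μ := by
    rw [hLam]; exact div_le_self hμ0.le h2d
  set A : ℝ := 2 * (N : ℝ) ^ 3 * 2 ^ N with hA
  have hN1 : (1 : ℝ) ≤ N := by
    have : 1 ≤ N := by omega
    exact_mod_cast this
  have hA1 : 1 ≤ A := by
    have h1 : (1 : ℝ) ≤ (N : ℝ) ^ 3 := one_le_pow₀ hN1
    have h2 : (1 : ℝ) ≤ 2 ^ N := one_le_pow₀ (by norm_num)
    rw [hA]; nlinarith
  have hAN : 2 * (N : ℝ) ≤ A := by
    have h1 : (N : ℝ) ≤ (N : ℝ) ^ 3 := by
      calc (N : ℝ) = N ^ 1 := (pow_one _).symm
        _ ≤ N ^ 3 := pow_le_pow_right₀ hN1 (by norm_num)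
    have h2 : (1 : ℝ) ≤ 2 ^ N := one_le_pow₀ (by norm_num)
    rw [hA]
    have h3 : (0 : ℝ) ≤ (N : ℝ) ^ 3 := by positivity
    nlinarith
  refine ⟨Lam / A, by positivity, fun Q => ⟨2 ^ N * Q + 2 ^ N / μ, by positivity, ?_⟩⟩
  intro V _ _ I ty T hIN hTy hQ hconn hcol hce hvan i hi1 hid f
  have hT : ∀ t ∈ T, t.card = N := fun t ht => by rw [hTy.card ht, hIN]
  have hPure : Pure (N - 1) T := fun t ht => by rw [hT t ht]; omega
  have hlam0 : 0 ≤ Lam / A := by positivity
  have hlam1 : 2 * (I.card : ℝ) * (Lam / A) ≤ 1 := by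
    rw [hIN, ← mul_div_assoc, div_le_one (by positivity)]
    nlinarith
  have hsp := sp_all hTy (fun s hs => hconn s (by omega)) hlam0 hlam1
    (fun s hs => hcol s (by omega))
  rw [hIN] at hsp
  have hALam : 2 * (N : ℝ) ^ 3 * 2 ^ N * (Lam / A) = Lam := by
    rw [← hA]; field_simp
  rw [hALam] at hsp
  have key := expand (T := T) (D := N - 1) (i := i) (Q := Q) hPure (by omega) (by omega) hQ
    (β := β) (C := C) (lam := Lam) (μ := μ) hβ (by linarith) hLam0.le
    (fun s hs hsi => hce s hs (i + 1) hsi (by omega))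
    (fun s hsi => (hsp s (i + 1 - s.card) (by omega)).mono
      (pow_le_pow_right₀ (by norm_num) (by omega)) le_rfl) hμ0 ?_ (hvan i hi1 hid) f
  · obtain ⟨b, hb⟩ := key
    refine ⟨b, ?_⟩
    have e : N - 1 + 1 = N := by omega
    rw [e] at hb
    exact hb
  · -- the smallness condition
    have h1 := hKMi i hid
    have h2 : Lam ^ 2 ≤ μ := by
      have : Lam ^ 2 = Lam * Lam := sq _
      nlinarith
    have h3 : KK β C (i + 1) i * (μ + Lam ^ 2) ≤ KM * (2 * μ) :=
      mul_le_mul h1 (by linarith) (by positivity) (by linarith)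
    have h4 : C * (KK β C (i + 1) i * (μ + Lam ^ 2)) ≤ 1 / 4 := by
      have h5 := mul_le_mul_of_nonneg_left h3 (by linarith : 0 ≤ C)
      have h6 : C * (KM * (2 * μ)) = 1 / 4 := by
        rw [hμ]; field_simp; norm_num
      linarith
    have h5 : Lam * 2 ^ (i + 1) ≤ 1 / 4 := by
      have h6 : (2 : ℝ) ^ (i + 1) ≤ 2 ^ (d + 1) := pow_le_pow_right₀ (by norm_num) (by omega)
      have h7 : Lam * 2 ^ (i + 1) ≤ Lam * 2 ^ (d + 1) := mul_le_mul_of_nonneg_left h6 hLam0.le
      have h8 : Lam * 2 ^ (d + 1) = μ / 4 := by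
        rw [hLam, show d + 3 = (d + 1) + 2 from rfl, pow_add]
        field_simp
        norm_num
      linarith
    linarith

end Vale.Agent.P067A
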