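import Vale.Agent.P067A.Wt

/-!
# P067: typed complexes, spectral gaps and coloured correlations (definitions)
-/

set_option linter.unusedSectionVars false

namespace Vale.Agent.P067A

open Finset

variable {V : Type*} [Fintype V] [DecidableEq V]

/-- typed complexes: every top face has exactly one vertex of every type in `I` -/
structure Typed (I : Finset ℕ) (ty : V → ℕ) (T : Finset (Finset V)) : Prop where
  inj : ∀ t ∈ T, Set.InjOn ty t
  img : ∀ t ∈ T, t.image ty = I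

/-- the subface with types in `J` -/
def pr (ty : V → ℕ) (J : Finset ℕ) (t : Finset V) : Finset V := t.filter fun x => ty x ∈ J

/-- correlation of the vertex of type `i` and the face of type `J` (uniform top face) -/
def Col (ty : V → ℕ) (T : Finset (Finset V)) (i : ℕ) (J : Finset ℕ) (rho : ℝ) : Prop :=
  ∀ F G : Finset V → ℝ, ∑ t ∈ T, F (pr ty {i} t) = 0 → ∑ t ∈ T, G (pr ty J t) = 0 →
    ∑ t ∈ T, F (pr ty {i} t) * G (pr ty J t) ≤
      rho * (Real.sqrt (∑ t ∈ T, F (pr ty {i} t) ^ 2) * Real.sqrt (∑ t ∈ T, G (pr ty J t) ^ 2))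

/-- one-sided spectral gap of the 1-skeleton (top faces with `N` vertices) -/
def Gap (T : Finset (Finset V)) (N : ℕ) (lam : ℝ) : Prop :=
  ∀ f : V → ℝ, ∑ t ∈ T, ∑ x ∈ t, f x = 0 →
    ∑ t ∈ T, ((∑ x ∈ t, f x) ^ 2 - ∑ x ∈ t, f x ^ 2) ≤
      lam * (N - 1) * ∑ t ∈ T, ∑ x ∈ t, f x ^ 2

/-- the 1-skeleton is connected -/
def Conn (T : Finset (Finset V)) : Prop :=
  ∀ f : V → ℝ, (∀ t ∈ T, ∀ x ∈ t, ∀ y ∈ t, f x = f y) →
    ∀ x y, 0 < Wt T {x} → 0 < Wt T {y} → f x = f y

theorem Typed.card {I : Finset ℕ} {ty : V → ℕ} {T : Finset (Finset V)} (h : Typed I ty T)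
    {t : Finset V} (ht : t ∈ T) : t.card = I.card := by
  rw [← h.img t ht, card_image_of_injOn (h.inj t ht)]

theorem Typed.lk {I : Finset ℕ} {ty : V → ℕ} {T : Finset (Finset V)} (h : Typed I ty T)
    (s : Finset V) : Typed (I \ s.image ty) ty (lk T s) where
  inj := by
    intro t ht
    unfold Vale.Agent.P067A.lk at ht
    obtain ⟨u, hu, rfl⟩ := mem_image.1 ht
    rw [mem_filter] at hu
    exact (h.inj u hu.1).mono (by
      intro x hx
      exact (mem_sdiff.1 hx).1)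
  img := by
    intro t ht
    unfold Vale.Agent.P067A.lk at ht
    obtain ⟨u, hu, rfl⟩ := mem_image.1 ht
    rw [mem_filter] at hu
    rw [← h.img u hu.1]
    ext i
    simp only [mem_image, mem_sdiff]
    constructor
    · rintro ⟨x, ⟨hx, hxs⟩, rfl⟩
      refine ⟨⟨x, hx, rfl⟩, ?_⟩
      rintro ⟨y, hy, hxy⟩
      have := h.inj u hu.1 (hu.2 hy) hx hxy
      exact hxs (this ▸ hy)
    · rintro ⟨⟨x, hx, rfl⟩, h2⟩
      exact ⟨x, ⟨hx, fun hxs => h2 ⟨x, hxs, rfl⟩⟩, rfl⟩

/-- sums over the link -/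
theorem sum_lk (T : Finset (Finset V)) (s : Finset V) (F : Finset V → ℝ) :
    ∑ t ∈ lk T s, F t = ∑ t ∈ T.filter (fun t => s ⊆ t), F (t \ s) := by
  unfold lk
  rw [sum_image]
  intro u hu v hv huv
  simp only [coe_filter, Set.mem_ofPred_eq] at hu hv
  have h1 : u = s ∪ (u \ s) := (union_sdiff_of_subset hu.2).symm
  have h2 : v = s ∪ (v \ s) := (union_sdiff_of_subset hv.2).symm
  rw [h1, h2]
  simp only at huv
  rw [huv]

end Vale.Agent.P067A
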