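import Vale.Agent.P067A.PartA

/-!
# P067: restriction to the vertices, and the final form of part A
-/

set_option linter.unusedSectionVars false

namespace Vale.Agent.P067A

open Finset

open Vale.Agent.P067 (faceSet IsPure topDegree weight Cochain cochainNorm coboundary cocycles
  coboundaries cochainDist IsCoboundaryExpander)

section

variable {V : Type*} [Fintype V] [DecidableEq V]

/-- the vertices -/
abbrev VV (T : Finset (Finset V)) := {v : V // 0 < Wt T {v}}

/-- the embedding of the vertices -/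
abbrev vemb (T : Finset (Finset V)) : VV T ↪ V := Function.Embedding.subtype _

/-- the complex on its vertices -/
def sub (T : Finset (Finset V)) : Finset (Finset (VV T)) :=
  T.image fun t => t.subtype fun v => 0 < Wt T {v}

theorem Wt_pos_of_mem {T : Finset (Finset V)} {t : Finset V} (ht : t ∈ T) {s : Finset V}
    (hs : s ⊆ t) : 0 < Wt T s := by
  unfold Wt
  exact card_pos.2 ⟨t, mem_filter.2 ⟨ht, hs⟩⟩

theorem map_subtype_of_pos {T : Finset (Finset V)} {s : Finset V} (hs : 0 < Wt T s) :
    (s.subtype fun v => 0 < Wt T {v}).map (vemb T) = s := by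
  rw [Finset.subtype_map, filter_true_of_mem]
  intro x hx
  exact lt_of_lt_of_le hs (Wt_mono (singleton_subset_iff.2 hx))

theorem subtype_map' {T : Finset (Finset V)} (s : Finset (VV T)) :
    (s.map (vemb T)).subtype (fun v => 0 < Wt T {v}) = s := by
  ext x
  simp only [mem_subtype, mem_map, Function.Embedding.subtype_apply]
  constructor
  · rintro ⟨y, hy, hxy⟩
    rwa [← Subtype.ext hxy]
  · intro hx; exact ⟨x, hx, rfl⟩

theorem Wt_sub (T : Finset (Finset V)) (s : Finset (VV T)) :
    Wt (sub T) s = Wt T (s.map (vemb T)) := by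
  unfold Wt sub
  rw [filter_image, card_image_of_injOn]
  · congr 1
    ext t
    simp only [mem_filter, and_congr_right_iff]
    intro ht
    have e := map_subtype_of_pos (Wt_pos_of_mem ht (Subset.refl t))
    constructor
    · intro h
      rw [← e]; exact map_subset_map.2 h
    · intro h
      rw [← e] at h; exact map_subset_map.1 h
  · intro t ht u hu htu
    simp only [coe_filter, Set.mem_ofPred_eq] at ht hu
    simp only at htu
    rw [← map_subtype_of_pos (Wt_pos_of_mem ht.1 (Subset.refl t)), htu,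
      map_subtype_of_pos (Wt_pos_of_mem hu.1 (Subset.refl u))]

theorem cob_sub {T : Finset (Finset V)} (g : Finset V → ZMod 2) (s : Finset (VV T)) :
    cob g (s.map (vemb T)) = cob (fun u => g (u.map (vemb T))) s := by
  unfold cob
  rw [sum_map]
  refine sum_congr rfl fun x hx => ?_
  exact congrArg g (map_erase (vemb T) s x).symm

theorem nrm_sub (T : Finset (Finset V)) (k : ℕ) (g : Finset V → ZMod 2) :
    nrm T k g = nrm (sub T) k (fun u => g (u.map (vemb T))) := by
  unfold nrm
  have h1 : ∑ r ∈ powersetCard k (univ : Finset (VV T)),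
      (if g (r.map (vemb T)) ≠ 0 then Wt (sub T) r else 0) =
      ∑ r ∈ (powersetCard k (univ : Finset (VV T))).image fun r => r.map (vemb T),
        (if g r ≠ 0 then Wt T r else 0) := by
    rw [sum_image]
    · refine sum_congr rfl fun r _ => ?_
      rw [Wt_sub]
    · intro r _ s _ h
      exact map_injective _ h
  rw [h1]
  symm
  refine sum_subset ?_ ?_
  · intro r hr
    obtain ⟨s, hs, rfl⟩ := mem_image.1 hr
    rw [mem_powersetCard_univ] at hs ⊢
    rw [card_map, hs]
  · intro r hr hr'
    rw [mem_powersetCard_univ] at hr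
    have : Wt T r = 0 := by
      by_contra h0
      have e := map_subtype_of_pos (Nat.pos_of_ne_zero h0)
      refine hr' (mem_image.2 ⟨r.subtype fun v => 0 < Wt T {v}, ?_, e⟩)
      rw [mem_powersetCard_univ, ← hr, ← congrArg card e, card_map]
    rw [this]; simp

theorem sub_card {T : Finset (Finset V)} {N : ℕ} (hT : ∀ t ∈ T, t.card = N) :
    ∀ t ∈ sub T, t.card = N := by
  intro t ht
  unfold sub at ht
  obtain ⟨u, hu, rfl⟩ := mem_image.1 ht
  rw [← hT u hu, ← card_map (vemb T), map_subtype_of_pos (Wt_pos_of_mem hu (Subset.refl u))]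

theorem sub_pos (T : Finset (Finset V)) (v : VV T) : 0 < Wt (sub T) {v} := by
  rw [Wt_sub, map_singleton]
  exact v.2

theorem sub_Q {T : Finset (Finset V)} {Q : ℕ} (hQ : ∀ s : Finset V, s.Nonempty → Wt T s ≤ Q)
    (s : Finset (VV T)) (hs : s.Nonempty) : Wt (sub T) s ≤ Q := by
  rw [Wt_sub]
  exact hQ _ (hs.map)

theorem sub_nonempty {T : Finset (Finset V)} (h : T.Nonempty) : (sub T).Nonempty := h.image _

theorem sub_expand {T : Finset (Finset V)} {K : ℝ} {d : ℕ}
    (h : ∀ i, 1 ≤ i → i ≤ d → ∀ f : Finset V → ZMod 2, ∃ b : Finset V → ZMod 2,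
      (nrm T i (fun r => f r + cob b r) : ℝ) ≤ K * nrm T (i + 1) (cob f)) :
    ∀ i, 1 ≤ i → i ≤ d → ∀ f : Finset (VV T) → ZMod 2, ∃ b : Finset (VV T) → ZMod 2,
      (nrm (sub T) i (fun r => f r + cob b r) : ℝ) ≤ K * nrm (sub T) (i + 1) (cob f) := by
  intro i h1 h2 f
  obtain ⟨b, hb⟩ := h i h1 h2 fun s => f (s.subtype fun v => 0 < Wt T {v})
  refine ⟨fun u => b (u.map (vemb T)), ?_⟩
  rw [nrm_sub T i, nrm_sub T (i + 1)] at hb
  have e1 : (fun u : Finset (VV T) => f ((u.map (vemb T)).subtype fun v => 0 < Wt T {v}) +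
      cob b (u.map (vemb T))) = fun r => f r + cob (fun u => b (u.map (vemb T))) r := by
    funext u
    rw [subtype_map', cob_sub]
  have e2 : (fun u : Finset (VV T) => cob (fun s : Finset V => f (s.subtype fun v =>
      0 < Wt T {v})) (u.map (vemb T))) = cob f := by
    funext u
    rw [cob_sub]
    congr 1
    funext w
    rw [subtype_map']
  rw [e1, e2] at hb
  exact hb

end

section

variable {V : Type} [Fintype V] [DecidableEq V]

theorem zmod2_cases : ∀ c : ZMod 2, c = 0 ∨ c = 1 := by decide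

/-- the graph of the edges of a complex -/
def edgeGraph (K : AbstractSimplicialComplex V) : SimpleGraph V where
  Adj x y := x ≠ y ∧ {x, y} ∈ K.faces
  symm := ⟨fun x y ⟨h1, h2⟩ => ⟨h1.symm, by rwa [pair_comm]⟩⟩
  loopless := ⟨fun _ h => h.1 rfl⟩

/-- a coboundary expander is connected -/
theorem conn_of_expander {T : Finset (Finset V)} {d N : ℕ} {hV : ∀ v : V, 0 < Wt T {v}}
    (hT : ∀ t ∈ T, t.card = N) (hdN : d + 1 ≤ N) (hne : T.Nonempty)
    (hd : 1 ≤ d) {ε : ℝ} (hε : 0 < ε)
    (h : IsCoboundaryExpander (skel T d hV) d ε) : (edgeGraph (skel T d hV)).Connected := by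
  classical
  set X := skel T d hV with hX
  have hnv : Nonempty V := by
    obtain ⟨t, ht⟩ := hne
    have : 0 < t.card := by rw [hT t ht]; omega
    obtain ⟨x, _⟩ := card_pos.1 this
    exact ⟨x⟩
  refine ⟨?_⟩
  intro x0 y0
  by_contra hxy
  set F : Finset V → ZMod 2 := fun s => if ∃ z ∈ s, (edgeGraph X).Reachable x0 z then 1 else 0
    with hF
  -- the coboundary vanishes
  have h0 : coboundary X 0 (res X 0 F) = 0 := by
    rw [hX, coboundary_res 0 hd]
    funext s
    have hs := (mem_faceSet_skel (hV := hV) hd).1 s.2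
    show cob F s.1 = 0
    obtain ⟨x, y, hne', hs2⟩ := card_eq_two.1 hs.1
    have hadj : (edgeGraph X).Adj x y := by
      refine ⟨hne', insert_nonempty x {y}, ?_, ?_⟩
      · rw [card_pair hne']; omega
      · rw [← hs2]; exact hs.2
    rw [hs2]
    unfold cob
    rw [sum_pair hne']
    have e1 : ({x, y} : Finset V).erase x = {y} := by
      rw [erase_insert (by simpa using hne')]
    have e2 : ({x, y} : Finset V).erase y = {x} := by
      rw [pair_comm, erase_insert (by simpa using hne'.symm)]
    rw [e1, e2]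
    simp only [hF, mem_singleton, exists_eq_left]
    have : (edgeGraph X).Reachable x0 y ↔ (edgeGraph X).Reachable x0 x :=
      ⟨fun h => h.trans hadj.symm.reachable, fun h => h.trans hadj.reachable⟩
    by_cases hr : (edgeGraph X).Reachable x0 x
    · rw [if_pos (this.2 hr), if_pos hr]; decide
    · rw [if_neg (fun h => hr (this.1 h)), if_neg hr]; simp
  have h1 := h 0 (by omega) (res X 0 F)
  rw [h0] at h1
  have h2 : cochainNorm X d (0 + 1) (0 : Cochain X (0 + 1)) = 0 := by
    unfold cochainNorm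
    refine sum_eq_zero fun s hs => ?_
    rw [mem_filter] at hs
    exact absurd rfl hs.2
  rw [h2] at h1
  -- every constant is at distance at least a weight
  have hM : (0 : ℝ) < (faceSet X d).card := by
    exact_mod_cast faceSet_card_pos (hV := hV) hT hdN hne
  have hwpos : ∀ v : V, 0 < weight X d 0 {v} := by
    intro v
    unfold weight
    have h3 : 0 < topDegree X d {v} := by
      obtain ⟨t, ht, hvt⟩ := exists_top (hV := hV) hT hdN (s := {v}) (by simp) (hV v)
      exact card_pos.2 ⟨t, mem_filter.2 ⟨ht, hvt⟩⟩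
    have h4 : (0 : ℝ) < topDegree X d {v} := by exact_mod_cast h3
    have h5 : (0 : ℝ) < (d + 1).choose (0 + 1) := by
      exact_mod_cast Nat.choose_pos (by omega)
    positivity
  have hvf : ∀ v : V, {v} ∈ faceSet X 0 := fun v =>
    (mem_faceSet_skel (Nat.zero_le d)).2 ⟨card_singleton v, hV v⟩
  set m : ℝ := min (weight X d 0 {x0}) (weight X d 0 {y0}) with hm
  have hm0 : 0 < m := lt_min (hwpos _) (hwpos _)
  have h3 : m ≤ cochainDist X d 0 (res X 0 F) (coboundaries X 0) := by
    unfold cochainDist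
    have : Nonempty (coboundaries X 0) := ⟨0⟩
    refine le_ciInf fun a => ?_
    obtain ⟨a, ha⟩ := a
    obtain ⟨c, hc⟩ := Submodule.mem_span_singleton.1 ha
    have hw0 : ∀ s : {s // s ∈ faceSet X 0}, 0 ≤ weight X d 0 s.1 := by
      intro s; unfold weight; positivity
    have hFx : F {x0} = 1 := by
      simp only [hF, mem_singleton, exists_eq_left]
      rw [if_pos (SimpleGraph.Reachable.refl _)]
    have hFy : F {y0} = 0 := by
      simp only [hF, mem_singleton, exists_eq_left]
      rw [if_neg hxy]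
    have hval : ∀ v, (res X 0 F - a) ⟨{v}, hvf v⟩ = F {v} - c := by
      intro v
      rw [← hc]
      show F {v} - c • (1 : ZMod 2) = _
      simp
    have hcc : c = 0 ∨ c = 1 := zmod2_cases c
    unfold cochainNorm
    rcases hcc with hc0 | hc0
    · refine (min_le_left _ _).trans ?_
      refine single_le_sum (f := fun s : {s // s ∈ faceSet X 0} => weight X d 0 s.1)
        (fun s _ => hw0 s) (a := ⟨{x0}, hvf x0⟩) ?_
      rw [mem_filter]
      refine ⟨mem_univ _, ?_⟩
      rw [hval, hFx, hc0]; simp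
    · refine (min_le_right _ _).trans ?_
      refine single_le_sum (f := fun s : {s // s ∈ faceSet X 0} => weight X d 0 s.1)
        (fun s _ => hw0 s) (a := ⟨{y0}, hvf y0⟩) ?_
      rw [mem_filter]
      refine ⟨mem_univ _, ?_⟩
      rw [hval, hFy, hc0]; simp
  nlinarith

end

/-- **Final form of part A.** -/
theorem partA_final (d N : ℕ) (hd : 1 ≤ d) (hdN : d + 2 ≤ N) (β : ℝ) (hβ : 0 < β) :
    ∃ lam0 : ℝ, 0 < lam0 ∧ ∀ Q : ℕ, 0 < Q → ∃ (D : ℕ) (ε : ℝ), 0 < ε ∧
      ∀ (V : Type) [Fintype V] [DecidableEq V] (I : Finset ℕ) (ty : V → ℕ)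
        (T : Finset (Finset V)), I.card = N → Typed I ty T → T.Nonempty →
        (∀ s : Finset V, s.Nonempty → Wt T s ≤ Q) →
        (∀ s : Finset V, s.card + 3 ≤ N → Conn (lk T s)) →
        (∀ s : Finset V, s.card + 2 = N → ∀ i ∈ I \ s.image ty, ∀ j ∈ I \ s.image ty,
          i ≠ j → Col ty (lk T s) i {j} lam0) →
        (∀ s : Finset V, s.Nonempty → ∀ k, s.card < k → k ≤ d + 1 →
          CE (lk T s) (k - s.card) β) →
        (∀ i, 1 ≤ i → i ≤ d → Van T i) →
        ∃ K : AbstractSimplicialComplex (VV T), IsPure K d ∧ (edgeGraph K).Connected ∧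
          (∀ v, topDegree K d {v} ≤ D) ∧ IsCoboundaryExpander K d ε := by
  obtain ⟨lam0, hlam0, hA⟩ := partA d N hdN β hβ
  refine ⟨lam0, hlam0, fun Q hQ0 => ?_⟩
  obtain ⟨K, hK, hA⟩ := hA Q
  refine ⟨2 ^ N * Q, 1 / (2 ^ (N + d + 1) * Q ^ 2 * K), by positivity, ?_⟩
  intro V _ _ I ty T hIN hTy hne hQ hconn hcol hce hvan
  have h1 := hA V I ty T hIN hTy hQ hconn hcol hce hvan
  have hT : ∀ t ∈ T, t.card = N := fun t ht => by rw [hTy.card ht, hIN]
  have hT' := sub_card hT
  have hexp := skel_expander (hV := sub_pos T) hT' (by omega : d + 1 ≤ N) (sub_nonempty hne)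
    (sub_Q hQ) hQ0 hK (sub_expand h1)
  refine ⟨skel (sub T) d (sub_pos T), skel_pure hT' (by omega), ?_, ?_, hexp⟩
  · exact conn_of_expander hT' (by omega) (sub_nonempty hne) hd (by positivity) hexp
  · exact skel_degree hT' (sub_Q hQ)

end Vale.Agent.P067A
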