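import Vale.Agent.P067A.SpDefs

/-!
# P067: Oppenheim's trickling down theorem (MODULE T1)

Notation for `f : V → ℝ`: `P(f) = ∑_{t ∈ T} ((∑_{x∈t} f x)² - ∑_{x∈t} f x²)`,
`Q(f) = ∑_{t ∈ T} ∑_{x∈t} f x²`, `W v = Wt T {v}`, and the random walk
`(M f)(v) = (∑_{t ∋ v} ∑_{x ∈ t, x ≠ v} f x) / ((N-1) W v)`. The gap of the
link of `v` applied to `f - (Mf)(v)` gives
`P_v(f) ≤ μ (N-2) Q_v(f) + (1-μ)(N-1)(N-2) W v (Mf)(v)²`, so with `⟨f,g⟩ = ∑ W f g`:
`⟨f, Mf⟩ ≤ μ ⟨f,f⟩ + (1-μ) ⟨Mf,Mf⟩`. For an eigenvector with eigenvalue `γ`: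
`γ ≤ μ + (1-μ) γ²`, i.e. `(γ-1)((1-μ)γ-μ) ≥ 0`, so `γ ≥ 1` (constant function, by connectivity) or
`γ ≤ μ/(1-μ)`.
-/

set_option linter.unusedSectionVars false

namespace Vale.Agent.P067A

open Finset

/-! ### the spectral step -/

theorem spec_abs {E : Type*} [NormedAddCommGroup E] [InnerProductSpace ℝ E]
    [FiniteDimensional ℝ E] (A : E →ₗ[ℝ] E) (hA : A.IsSymmetric) {mu : ℝ} (hmu1 : mu < 1)
    (hkey : ∀ g : E, inner ℝ (A g) g ≤ mu * inner ℝ g g + (1 - mu) * inner ℝ (A g) (A g)) (g : E)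
    (hg : ∀ (e : E) (c : ℝ), 1 ≤ c → A e = c • e → inner ℝ e g = 0) :
    inner ℝ (A g) g ≤ mu / (1 - mu) * inner ℝ g g := by
  classical
  set n := Module.finrank ℝ E with hn
  set b := hA.eigenvectorBasis hn.symm with hb
  set ev := hA.eigenvalues hn.symm with hev
  have hAb : ∀ i, A (b i) = ev i • b i := fun i => by
    exact hA.apply_eigenvectorBasis hn.symm i
  have h1 : inner ℝ (A g) g = ∑ i, ev i * (inner ℝ (b i) g) ^ 2 := by
    rw [← b.sum_inner_mul_inner]
    refine sum_congr rfl fun i _ => ?_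
    rw [hA g (b i), hAb, inner_smul_right, real_inner_comm g (b i)]
    ring
  have h2 : inner ℝ g g = ∑ i, (inner ℝ (b i) g) ^ 2 := by
    rw [← b.sum_inner_mul_inner]
    refine sum_congr rfl fun i _ => ?_
    rw [real_inner_comm g (b i)]
    ring
  rw [h1, h2, mul_sum]
  refine sum_le_sum fun i _ => ?_
  by_cases hi : 1 ≤ ev i
  · rw [hg (b i) (ev i) hi (hAb i)]
    simp
  · push Not at hi
    refine mul_le_mul_of_nonneg_right ?_ (sq_nonneg _)
    have h3 := hkey (b i)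
    have h4 : inner ℝ (b i) (b i) = (1 : ℝ) := by
      rw [real_inner_self_eq_norm_sq, b.norm_eq_one]; norm_num
    rw [hAb, inner_smul_left, inner_smul_left, inner_smul_right, h4] at h3
    simp only [conj_trivial, mul_one] at h3
    rw [le_div_iff₀ (by linarith)]
    nlinarith

variable {V : Type*} [Fintype V] [DecidableEq V]

/-! ### sums -/

theorem sum_vt (T : Finset (Finset V)) (F : V → Finset V → ℝ) :
    ∑ v, ∑ t ∈ T.filter (fun t => v ∈ t), F v t = ∑ t ∈ T, ∑ v ∈ t, F v t := by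
  refine sum_comm' fun v t => ?_
  simp [and_comm]

/-- unnormalised walk -/
def Lf (T : Finset (Finset V)) (f : V → ℝ) (v : V) : ℝ :=
  ∑ t ∈ T.filter (fun t => v ∈ t), ∑ x ∈ t.erase v, f x

theorem sum_mul_Lf (T : Finset (Finset V)) (h f : V → ℝ) :
    ∑ v, h v * Lf T f v =
      ∑ t ∈ T, ((∑ x ∈ t, h x) * (∑ x ∈ t, f x) - ∑ x ∈ t, h x * f x) := by
  have h1 : ∀ v, h v * Lf T f v =
      ∑ t ∈ T.filter (fun t => v ∈ t), h v * ((∑ x ∈ t, f x) - f v) := by
    intro v
    unfold Lf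
    rw [mul_sum]
    refine sum_congr rfl fun t ht => ?_
    rw [mem_filter] at ht
    rw [← add_sum_erase t f ht.2]
    ring
  simp_rw [h1]
  rw [sum_vt]
  refine sum_congr rfl fun t _ => ?_
  simp_rw [mul_sub]
  rw [sum_sub_distrib, sum_mul]

theorem Wt_one (T : Finset (Finset V)) (v : V) :
    Wt T {v} = (T.filter fun t => v ∈ t).card := by
  unfold Wt
  congr 1
  ext t
  simp

theorem sum_W_mul (T : Finset (Finset V)) (f : V → ℝ) :
    ∑ v, (Wt T {v} : ℝ) * f v = ∑ t ∈ T, ∑ v ∈ t, f v := by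
  rw [← sum_vt]
  refine sum_congr rfl fun v _ => ?_
  rw [sum_const, nsmul_eq_mul, Wt_one]

theorem Lf_eq_zero {T : Finset (Finset V)} {v : V} (h : Wt T {v} = 0) (f : V → ℝ) :
    Lf T f v = 0 := by
  rw [Wt_one, card_eq_zero] at h
  unfold Lf
  rw [h, sum_empty]

theorem Lf_congr {T : Finset (Finset V)} {f g : V → ℝ}
    (h : ∀ t ∈ T, ∀ x ∈ t, f x = g x) (v : V) : Lf T f v = Lf T g v := by
  unfold Lf
  refine sum_congr rfl fun t ht => sum_congr rfl fun x hx => ?_
  exact h t (mem_filter.1 ht).1 x (mem_of_mem_erase hx)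

/-- the gap of the link of `v` -/
theorem gap_vertex {T : Finset (Finset V)} {N : ℕ} (hN : 3 ≤ N) (hT : ∀ t ∈ T, t.card = N)
    {mu : ℝ} (hl : ∀ v, 0 < Wt T {v} → Gap (lk T {v}) (N - 1) mu) (f : V → ℝ) (v : V) :
    ∑ t ∈ T.filter (fun t => v ∈ t),
        ((∑ x ∈ t.erase v, f x) ^ 2 - ∑ x ∈ t.erase v, f x ^ 2) ≤
      mu * (N - 2) * ∑ t ∈ T.filter (fun t => v ∈ t), ∑ x ∈ t.erase v, f x ^ 2 +
        (1 - mu) * (N - 2) * ((Lf T f v) ^ 2 / ((N - 1) * Wt T {v})) := by
  rcases Nat.eq_zero_or_pos (Wt T {v}) with hw | hw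
  · rw [Lf_eq_zero hw]
    rw [Wt_one, card_eq_zero] at hw
    rw [hw]
    simp
  · have hg := hl v hw
    have hN1 : ((N - 1 : ℕ) : ℝ) = N - 1 := by
      rw [Nat.cast_sub (by omega)]; simp
    have hN3 : (3 : ℝ) ≤ N := by exact_mod_cast hN
    have hW : (0 : ℝ) < Wt T {v} := by exact_mod_cast hw
    set W : ℝ := (Wt T {v} : ℝ) with hWdef
    set c : ℝ := Lf T f v / ((N - 1) * W) with hc
    have hne : ((N : ℝ) - 1) * W ≠ 0 := by
      have : (0 : ℝ) < (N - 1) * W := mul_pos (by linarith) hW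
      exact this.ne'
    have hL : Lf T f v = (N - 1) * W * c := by
      rw [hc, mul_div_cancel₀ _ hne]
    set τ := T.filter (fun t => v ∈ t) with hτ
    have hτc : (τ.card : ℝ) = W := by rw [hWdef, Wt_one]
    have hfil : T.filter (fun t => {v} ⊆ t) = τ := by
      rw [hτ]; ext t; simp
    have hcard : ∀ t ∈ τ, ((t.erase v).card : ℝ) = N - 1 := by
      intro t ht
      rw [hτ, mem_filter] at ht
      rw [card_erase_of_mem ht.2, hT t ht.1, hN1]
    have hs : ∀ F : Finset V → ℝ, ∑ t ∈ lk T {v}, F t = ∑ t ∈ τ, F (t.erase v) := by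
      intro F
      rw [sum_lk, hfil]
      refine sum_congr rfl fun t _ => ?_
      rw [sdiff_singleton_eq_erase]
    have e1 : ∀ t ∈ τ, ∑ x ∈ t.erase v, (f x - c) = (∑ x ∈ t.erase v, f x) - (N - 1) * c := by
      intro t ht
      rw [sum_sub_distrib, sum_const, nsmul_eq_mul, hcard t ht]
    have e2 : ∀ t ∈ τ, ∑ x ∈ t.erase v, (f x - c) ^ 2 =
        (∑ x ∈ t.erase v, f x ^ 2) - 2 * c * (∑ x ∈ t.erase v, f x) + (N - 1) * c ^ 2 := by
      intro t ht
      have : ∀ x, (f x - c) ^ 2 = (f x ^ 2 - 2 * c * f x) + c ^ 2 := fun x => by ring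
      simp_rw [this]
      rw [sum_add_distrib, sum_sub_distrib, ← mul_sum, sum_const, nsmul_eq_mul, hcard t ht]
    have hLτ : ∑ t ∈ τ, ∑ x ∈ t.erase v, f x = (N - 1) * W * c := by
      rw [← hL]; rfl
    have h0 : ∑ t ∈ lk T {v}, ∑ x ∈ t, (f x - c) = 0 := by
      rw [hs (fun t => ∑ x ∈ t, (f x - c)), sum_congr rfl e1, sum_sub_distrib, hLτ, sum_const,
        nsmul_eq_mul, hτc]
      ring
    have h3 := hg (fun x => f x - c) h0
    rw [hs (fun t => (∑ x ∈ t, (f x - c)) ^ 2 - ∑ x ∈ t, (f x - c) ^ 2),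
      hs (fun t => ∑ x ∈ t, (f x - c) ^ 2), hN1] at h3
    have h4 : ∑ t ∈ τ, ((∑ x ∈ t.erase v, (f x - c)) ^ 2 - ∑ x ∈ t.erase v, (f x - c) ^ 2) =
        ∑ t ∈ τ, ((∑ x ∈ t.erase v, f x) ^ 2 - ∑ x ∈ t.erase v, f x ^ 2) -
          (N - 1) * (N - 2) * W * c ^ 2 := by
      have : ∀ t ∈ τ, (∑ x ∈ t.erase v, (f x - c)) ^ 2 - ∑ x ∈ t.erase v, (f x - c) ^ 2 =
          ((∑ x ∈ t.erase v, f x) ^ 2 - ∑ x ∈ t.erase v, f x ^ 2) -
            (2 * (N - 2) * c) * (∑ x ∈ t.erase v, f x) + (N - 1) * (N - 2) * c ^ 2 := by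
        intro t ht
        rw [e1 t ht, e2 t ht]
        ring
      rw [sum_congr rfl this, sum_add_distrib, sum_sub_distrib, ← mul_sum, hLτ, sum_const,
        nsmul_eq_mul, hτc]
      ring
    have h5 : ∑ t ∈ τ, ∑ x ∈ t.erase v, (f x - c) ^ 2 =
        ∑ t ∈ τ, ∑ x ∈ t.erase v, f x ^ 2 - (N - 1) * W * c ^ 2 := by
      rw [sum_congr rfl e2, sum_add_distrib, sum_sub_distrib, ← mul_sum, hLτ, sum_const,
        nsmul_eq_mul, hτc]
      ring
    rw [h4, h5] at h3
    have h6 : Lf T f v ^ 2 / ((N - 1) * W) = (N - 1) * W * c ^ 2 := by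
      rw [hL, div_eq_iff hne]; ring
    rw [h6]
    nlinarith

/-- the key inequality -/
theorem key_ineq {T : Finset (Finset V)} {N : ℕ} (hN : 3 ≤ N) (hT : ∀ t ∈ T, t.card = N)
    {mu : ℝ} (hl : ∀ v, 0 < Wt T {v} → Gap (lk T {v}) (N - 1) mu) (f : V → ℝ) :
    ∑ t ∈ T, ((∑ x ∈ t, f x) ^ 2 - ∑ x ∈ t, f x ^ 2) ≤
      mu * (N - 1) * ∑ t ∈ T, ∑ x ∈ t, f x ^ 2 +
        (1 - mu) * ∑ v, (Lf T f v) ^ 2 / ((N - 1) * Wt T {v}) := by
  have hN3 : (3 : ℝ) ≤ N := by exact_mod_cast hN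
  have h1 := sum_le_sum fun v (_ : v ∈ (univ : Finset V)) => gap_vertex hN hT hl f v
  rw [sum_add_distrib, ← mul_sum, ← mul_sum, sum_vt, sum_vt] at h1
  have h2 : ∑ t ∈ T, ∑ v ∈ t, ((∑ x ∈ t.erase v, f x) ^ 2 - ∑ x ∈ t.erase v, f x ^ 2) =
      (N - 2) * ∑ t ∈ T, ((∑ x ∈ t, f x) ^ 2 - ∑ x ∈ t, f x ^ 2) := by
    rw [mul_sum]
    refine sum_congr rfl fun t ht => ?_
    have : ∀ v ∈ t, (∑ x ∈ t.erase v, f x) ^ 2 - ∑ x ∈ t.erase v, f x ^ 2 =
        ((∑ x ∈ t, f x) ^ 2 - ∑ x ∈ t, f x ^ 2) - (2 * ∑ x ∈ t, f x) * f v + 2 * f v ^ 2 := by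
      intro v hv
      rw [← add_sum_erase t f hv, ← add_sum_erase t (fun x => f x ^ 2) hv]
      ring
    rw [sum_congr rfl this, sum_add_distrib, sum_sub_distrib, ← mul_sum, ← mul_sum, sum_const,
      nsmul_eq_mul, hT t ht]
    ring
  have h3 : ∑ t ∈ T, ∑ v ∈ t, ∑ x ∈ t.erase v, f x ^ 2 =
      (N - 1) * ∑ t ∈ T, ∑ x ∈ t, f x ^ 2 := by
    rw [mul_sum]
    refine sum_congr rfl fun t ht => ?_
    have : ∀ v ∈ t, ∑ x ∈ t.erase v, f x ^ 2 = (∑ x ∈ t, f x ^ 2) - f v ^ 2 := by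
      intro v hv
      rw [← add_sum_erase t (fun x => f x ^ 2) hv]
      ring
    rw [sum_congr rfl this, sum_sub_distrib, sum_const, nsmul_eq_mul, hT t ht]
    ring
  rw [h2, h3] at h1
  have h4 : (0 : ℝ) < N - 2 := by linarith
  have h5 : ((N : ℝ) - 2) * ∑ t ∈ T, ((∑ x ∈ t, f x) ^ 2 - ∑ x ∈ t, f x ^ 2) ≤
      (N - 2) * (mu * (N - 1) * ∑ t ∈ T, ∑ x ∈ t, f x ^ 2 +
        (1 - mu) * ∑ v, (Lf T f v) ^ 2 / ((N - 1) * Wt T {v})) := by
    calc _ ≤ _ := h1
      _ = _ := by ring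
  exact le_of_mul_le_mul_left h5 h4

/-- variance form -/
theorem var_form (t : Finset V) (f : V → ℝ) :
    ∑ x ∈ t, ∑ y ∈ t, (f x - f y) ^ 2 =
      2 * ((t.card : ℝ) * (∑ x ∈ t, f x ^ 2) - (∑ x ∈ t, f x) ^ 2) := by
  have : ∀ x y, (f x - f y) ^ 2 = f x ^ 2 + f y ^ 2 - 2 * (f x * f y) := fun x y => by ring
  simp_rw [this, sum_sub_distrib, sum_add_distrib, ← mul_sum, ← sum_mul, sum_const, nsmul_eq_mul]
  rw [← mul_sum]
  ring

theorem trickle {T : Finset (Finset V)} {N : ℕ} (hN : 3 ≤ N) (hT : ∀ t ∈ T, t.card = N)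
    (hc : Conn T) {mu : ℝ} (hmu0 : 0 ≤ mu) (hmu1 : mu < 1)
    (hl : ∀ v, 0 < Wt T {v} → Gap (lk T {v}) (N - 1) mu) : Gap T N (mu / (1 - mu)) := by
  classical
  intro f0 hf0
  have hN3 : (3 : ℝ) ≤ N := by exact_mod_cast hN
  have hN1 : (0 : ℝ) < N - 1 := by linarith
  set W : V → ℝ := fun v => (Wt T {v} : ℝ) with hW
  set r : V → ℝ := fun v => (Real.sqrt (W v))⁻¹ with hr
  have hW0 : ∀ v, 0 ≤ W v := fun v => Nat.cast_nonneg _
  have hWpos : ∀ t ∈ T, ∀ x ∈ t, 0 < W x := by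
    intro t ht x hx
    have : 0 < Wt T {x} := by
      rw [Wt_one]; exact card_pos.2 ⟨t, mem_filter.2 ⟨ht, hx⟩⟩
    exact Nat.cast_pos.2 this
  have hr0 : ∀ v, 0 < W v → r v * Real.sqrt (W v) = 1 := by
    intro v hv
    exact inv_mul_cancel₀ (Real.sqrt_pos.2 hv).ne'
  have hr2 : ∀ v, 0 < W v → W v * r v ^ 2 = 1 := by
    intro v hv
    rw [hr]
    simp only
    rw [inv_pow, Real.sq_sqrt hv.le]
    exact mul_inv_cancel₀ hv.ne'
  -- the operator
  set A : EuclideanSpace ℝ V →ₗ[ℝ] EuclideanSpace ℝ V :=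
    { toFun := fun g => WithLp.toLp 2 fun v => r v * Lf T (fun x => r x * g x) v / (N - 1)
      map_add' := by
        intro g h
        ext v
        simp only [PiLp.add_apply]
        have : Lf T (fun x => r x * (g x + h x)) v =
            Lf T (fun x => r x * g x) v + Lf T (fun x => r x * h x) v := by
          unfold Lf
          simp_rw [mul_add, sum_add_distrib]
        rw [this]
        ring
      map_smul' := by
        intro c g
        ext v
        simp only [PiLp.smul_apply, smul_eq_mul, RingHom.id_apply]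
        have : Lf T (fun x => r x * (c * g x)) v = c * Lf T (fun x => r x * g x) v := by
          unfold Lf
          rw [mul_sum]
          refine sum_congr rfl fun t _ => ?_
          rw [mul_sum]
          refine sum_congr rfl fun x _ => ?_
          ring
        rw [this]
        ring } with hA
  have hAap : ∀ g v, A g v = r v * Lf T (fun x => r x * g x) v / (N - 1) := fun g v => rfl
  have hin : ∀ g h : EuclideanSpace ℝ V, inner ℝ g h = ∑ v, g v * h v := by
    intro g h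
    rw [PiLp.inner_apply]
    refine sum_congr rfl fun v _ => ?_
    simp [mul_comm]
  have hinA : ∀ g h : EuclideanSpace ℝ V, inner ℝ (A g) h =
      (∑ v, (r v * h v) * Lf T (fun x => r x * g x) v) / (N - 1) := by
    intro g h
    rw [hin, sum_div]
    refine sum_congr rfl fun v _ => ?_
    rw [hAap]
    ring
  have hsym : A.IsSymmetric := by
    intro g h
    rw [real_inner_comm (A h) g, hinA, hinA, sum_mul_Lf, sum_mul_Lf]
    congr 1
    refine sum_congr rfl fun t _ => ?_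
    rw [mul_comm (∑ x ∈ t, r x * h x)]
    congr 1
    refine sum_congr rfl fun x _ => ?_
    ring
  have hQle : ∀ g : EuclideanSpace ℝ V,
      ∑ t ∈ T, ∑ x ∈ t, (r x * g x) ^ 2 ≤ inner ℝ g g := by
    intro g
    rw [hin, ← sum_W_mul]
    refine sum_le_sum fun v _ => ?_
    rcases eq_or_lt_of_le (hW0 v) with h | h
    · have : (Wt T {v} : ℝ) = 0 := h.symm
      rw [this, zero_mul]
      exact mul_self_nonneg _
    · have := hr2 v h
      have e : (Wt T {v} : ℝ) * (r v * g v) ^ 2 = (W v * r v ^ 2) * (g v * g v) := by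
        rw [hW]; ring
      rw [e, this, one_mul]
  have hPA : ∀ g : EuclideanSpace ℝ V, inner ℝ (A g) g * (N - 1) =
      ∑ t ∈ T, ((∑ x ∈ t, r x * g x) ^ 2 - ∑ x ∈ t, (r x * g x) ^ 2) := by
    intro g
    rw [hinA, div_mul_cancel₀ _ hN1.ne', sum_mul_Lf]
    refine sum_congr rfl fun t _ => ?_
    rw [sq]
    congr 1
    refine sum_congr rfl fun x _ => ?_
    ring
  have hAA : ∀ g : EuclideanSpace ℝ V, ∑ v, (Lf T (fun x => r x * g x) v) ^ 2 /
      ((N - 1) * Wt T {v}) = (N - 1) * inner ℝ (A g) (A g) := by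
    intro g
    rw [hin, mul_sum]
    refine sum_congr rfl fun v _ => ?_
    rw [hAap]
    rcases eq_or_lt_of_le (hW0 v) with h | h
    · have : Wt T {v} = 0 := by
        have : (Wt T {v} : ℝ) = 0 := h.symm
        exact_mod_cast this
      rw [Lf_eq_zero this]
      simp
    · have h2 := hr2 v h
      have h3 : r v ^ 2 = 1 / W v := by
        rw [eq_div_iff h.ne']; linarith
      have e : r v * Lf T (fun x => r x * g x) v / (N - 1) *
          (r v * Lf T (fun x => r x * g x) v / (N - 1)) =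
          r v ^ 2 * (Lf T (fun x => r x * g x) v) ^ 2 / (N - 1) ^ 2 := by
        field_simp
      rw [e, h3]
      change _ / ((N - 1) * W v) = _
      have h4 := h.ne'
      have h5 := hN1.ne'
      field_simp
  have hkey : ∀ g : EuclideanSpace ℝ V,
      inner ℝ (A g) g ≤ mu * inner ℝ g g + (1 - mu) * inner ℝ (A g) (A g) := by
    intro g
    have h1 := key_ineq hN hT hl (fun x => r x * g x)
    rw [← hPA, hAA] at h1
    have h2 := hQle g
    have h3 : mu * (N - 1) * ∑ t ∈ T, ∑ x ∈ t, (r x * g x) ^ 2 ≤ mu * (N - 1) * inner ℝ g g :=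
      mul_le_mul_of_nonneg_left h2 (by positivity)
    have h4 : inner ℝ (A g) g * (N - 1) ≤
        (mu * inner ℝ g g + (1 - mu) * inner ℝ (A g) (A g)) * (N - 1) := by
      calc _ ≤ _ := h1
        _ ≤ _ := add_le_add_left h3 _
        _ = _ := by ring
    exact le_of_mul_le_mul_right h4 hN1
  -- the vector
  set g0 : EuclideanSpace ℝ V := WithLp.toLp 2 fun v => Real.sqrt (W v) * f0 v with hg0
  have hg0ap : ∀ v, g0 v = Real.sqrt (W v) * f0 v := fun v => rfl
  have hrg : ∀ t ∈ T, ∀ x ∈ t, r x * g0 x = f0 x := by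
    intro t ht x hx
    rw [hg0ap, ← mul_assoc, hr0 x (hWpos t ht x hx), one_mul]
  have hfin := spec_abs A hsym hmu1 hkey g0 ?_
  · -- conclusion
    have h1 : inner ℝ (A g0) g0 * (N - 1) =
        ∑ t ∈ T, ((∑ x ∈ t, f0 x) ^ 2 - ∑ x ∈ t, f0 x ^ 2) := by
      rw [hPA]
      refine sum_congr rfl fun t ht => ?_
      rw [sum_congr rfl (hrg t ht)]
      congr 1
      refine sum_congr rfl fun x hx => ?_
      rw [hrg t ht x hx]
    have h2 : inner ℝ g0 g0 = ∑ t ∈ T, ∑ x ∈ t, f0 x ^ 2 := by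
      rw [hin, ← sum_W_mul]
      refine sum_congr rfl fun v _ => ?_
      rw [hg0ap]
      have := Real.mul_self_sqrt (hW0 v)
      calc Real.sqrt (W v) * f0 v * (Real.sqrt (W v) * f0 v)
          = (Real.sqrt (W v) * Real.sqrt (W v)) * f0 v ^ 2 := by ring
        _ = _ := by rw [this]
    rw [← h1, ← h2]
    calc _ ≤ (mu / (1 - mu) * inner ℝ g0 g0) * (N - 1) :=
          mul_le_mul_of_nonneg_right hfin hN1.le
      _ = _ := by ring
  · -- eigenvectors with eigenvalue at least one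
    intro e c hc1 hAe
    have h1 : inner ℝ (A e) e = c * inner ℝ e e := by
      rw [hAe, inner_smul_left]; simp
    have h0 : 0 ≤ inner ℝ e e := real_inner_self_nonneg
    have h2 := hPA e
    have h3 := hQle e
    have h4 : ∀ t ∈ T, ∑ x ∈ t, ∑ y ∈ t, (r x * e x - r y * e y) ^ 2 =
        2 * ((N - 1) * (∑ x ∈ t, (r x * e x) ^ 2) -
          ((∑ x ∈ t, r x * e x) ^ 2 - ∑ x ∈ t, (r x * e x) ^ 2)) := by
      intro t ht
      rw [var_form t fun x => r x * e x, hT t ht]
      ring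
    have h5 : ∑ t ∈ T, ∑ x ∈ t, ∑ y ∈ t, (r x * e x - r y * e y) ^ 2 ≤ 0 := by
      rw [sum_congr rfl h4, ← mul_sum, sum_sub_distrib, ← mul_sum, ← h2, h1]
      nlinarith [mul_nonneg (mul_nonneg (by linarith : (0 : ℝ) ≤ c - 1) h0) hN1.le,
        mul_le_mul_of_nonneg_left h3 hN1.le]
    have h6 : ∀ t ∈ T, ∀ x ∈ t, ∀ y ∈ t, r x * e x = r y * e y := by
      intro t ht x hx y hy
      have h7 : ∀ t ∈ T, 0 ≤ ∑ x ∈ t, ∑ y ∈ t, (r x * e x - r y * e y) ^ 2 :=
        fun t _ => sum_nonneg fun x _ => sum_nonneg fun y _ => sq_nonneg _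
      have h8 := (sum_eq_zero_iff_of_nonneg h7).1 (le_antisymm h5 (sum_nonneg h7)) t ht
      have h9 := (sum_eq_zero_iff_of_nonneg
        (fun x _ => sum_nonneg fun y _ => sq_nonneg _)).1 h8 x hx
      have h10 := (sum_eq_zero_iff_of_nonneg (fun y _ => sq_nonneg _)).1 h9 y hy
      have h11 := pow_eq_zero_iff (two_ne_zero) |>.1 h10
      linarith
    have h7 := hc (fun x => r x * e x) h6
    -- the constant
    rw [hin]
    by_cases hex : ∃ v0, 0 < Wt T {v0}
    · obtain ⟨v0, hv0⟩ := hex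
      have h8 : ∀ v, e v * g0 v = (r v0 * e v0) * (W v * f0 v) := by
        intro v
        rcases eq_or_lt_of_le (hW0 v) with h | h
        · rw [hg0ap, ← h]; simp
        · have hv : 0 < Wt T {v} := by
            have : (0 : ℝ) < (Wt T {v} : ℝ) := h
            exact_mod_cast this
          have h9 : r v * e v = r v0 * e v0 := h7 v v0 hv hv0
          rw [← h9, hg0ap]
          have h10 : r v * W v = Real.sqrt (W v) := by
            calc r v * W v = r v * (Real.sqrt (W v) * Real.sqrt (W v)) := by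
                  rw [Real.mul_self_sqrt (hW0 v)]
              _ = (r v * Real.sqrt (W v)) * Real.sqrt (W v) := by ring
              _ = _ := by rw [hr0 v h, one_mul]
          rw [← h10]; ring
      rw [sum_congr rfl fun v _ => h8 v, ← mul_sum]
      have h9 : ∑ v, W v * f0 v = 0 := by
        rw [← hf0]; exact sum_W_mul T f0
      rw [h9, mul_zero]
    · push Not at hex
      refine sum_eq_zero fun v _ => ?_
      have : W v = 0 := by
        have := hex v
        have h9 : Wt T {v} = 0 := by omega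
        change (Wt T {v} : ℝ) = 0
        rw [h9]; simp
      rw [hg0ap, this]; simp

theorem Gap.mono {T : Finset (Finset V)} {N : ℕ} (hN : 1 ≤ N) {a b : ℝ} (h : Gap T N a)
    (hab : a ≤ b) : Gap T N b := by
  intro f hf
  refine (h f hf).trans ?_
  have hN1 : (1 : ℝ) ≤ N := by exact_mod_cast hN
  have h1 : 0 ≤ ∑ t ∈ T, ∑ x ∈ t, f x ^ 2 :=
    sum_nonneg fun t _ => sum_nonneg fun x _ => sq_nonneg _
  exact mul_le_mul_of_nonneg_right (mul_le_mul_of_nonneg_right hab (by linarith)) h1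

/-- all links of dimension at least one, from the links of codimension two -/
theorem trickle_all {T : Finset (Finset V)} {N : ℕ} (hT : ∀ t ∈ T, t.card = N)
    (hc : ∀ s : Finset V, s.card + 3 ≤ N → Conn (lk T s)) {lam : ℝ} (h0 : 0 ≤ lam)
    (h1 : 2 * N * lam ≤ 1)
    (hl : ∀ s : Finset V, s.card + 2 = N → Gap (lk T s) 2 lam) (s : Finset V)
    (hs : s.card + 2 ≤ N) : Gap (lk T s) (N - s.card) (2 * lam) := by
  have key : ∀ k : ℕ, ∀ s : Finset V, s.card + 2 + k = N →
      Gap (lk T s) (N - s.card) (lam / (1 - k * lam)) := by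
    intro k
    induction k with
    | zero =>
      intro s hs
      have h2 : N - s.card = 2 := by omega
      rw [h2]
      simpa using hl s (by omega)
    | succ k ih =>
      intro s hs
      have hkN : ((k : ℝ) + 1) ≤ N := by
        have : k + 1 ≤ N := by omega
        exact_mod_cast this
      have hk1 : ((k : ℝ) + 1) * lam ≤ 1 / 2 := by nlinarith
      have hk2 : (k : ℝ) * lam ≤ 1 / 2 := by nlinarith
      have hpos : (0 : ℝ) < 1 - k * lam := by linarith
      have hpos' : (0 : ℝ) < 1 - (k + 1) * lam := by linarith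
      have hmu0 : 0 ≤ lam / (1 - k * lam) := by positivity
      have hmu1 : lam / (1 - k * lam) < 1 := by
        rw [div_lt_one hpos]; linarith
      have h4 := trickle (T := lk T s) (N := N - s.card) (by omega) (by
        intro t ht
        unfold lk at ht
        obtain ⟨u, hu, rfl⟩ := mem_image.1 ht
        rw [mem_filter] at hu
        rw [card_sdiff_of_subset hu.2, hT u hu.1]) (hc s (by omega)) hmu0 hmu1 (by
        intro v hv
        have hvs : v ∉ s := by
          intro hvs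
          rw [← lk_card, lk_lk_mem T hvs] at hv
          simp at hv
        rw [lk_lk T hvs]
        have h5 := ih (insert v s) (by rw [card_insert_of_notMem hvs]; omega)
        rw [card_insert_of_notMem hvs] at h5
        have e : N - s.card - 1 = N - (s.card + 1) := by omega
        rw [e]
        exact h5)
      have e : lam / (1 - k * lam) / (1 - lam / (1 - k * lam)) =
          lam / (1 - (k + 1 : ℕ) * lam) := by
        have h6 : 1 - lam / (1 - k * lam) = (1 - (k + 1) * lam) / (1 - k * lam) := by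
          rw [eq_div_iff hpos.ne', sub_mul, div_mul_cancel₀ _ hpos.ne']
          ring
        rw [h6, div_div_div_cancel_right₀ hpos.ne']
        push_cast
        rfl
      rw [← e]
      exact h4
  have h2 := key (N - 2 - s.card) s (by omega)
  refine h2.mono (by omega) ?_
  have h3 : ((N - 2 - s.card : ℕ) : ℝ) ≤ N := by
    have : N - 2 - s.card ≤ N := by omega
    exact_mod_cast this
  have h4 : ((N - 2 - s.card : ℕ) : ℝ) * lam ≤ 1 / 2 := by nlinarith
  rw [div_le_iff₀ (by linarith)]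
  nlinarith

end Vale.Agent.P067A
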