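import Mathlib

/-!
# P067: weighted complexes given by their top faces

A pure complex is given by the finite set `T` of its top faces.  `Wt T s` is the number of top
faces containing `s`.  Cochains are functions `f : Finset V → ZMod 2`; only the values on faces of
the right cardinality matter.
-/

set_option linter.unusedSectionVars false

namespace Vale.Agent.P067A

open Finset

variable {V : Type*} [Fintype V] [DecidableEq V]

/-- number of top faces containing `s` -/
def Wt (T : Finset (Finset V)) (s : Finset V) : ℕ := (T.filter fun t => s ⊆ t).card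

/-- the top faces of the link of `s` -/
def lk (T : Finset (Finset V)) (s : Finset V) : Finset (Finset V) :=
  (T.filter fun t => s ⊆ t).image fun t => t \ s

/-- the coboundary -/
def cob (f : Finset V → ZMod 2) (r : Finset V) : ZMod 2 := ∑ x ∈ r, f (r.erase x)

/-- localisation -/
def loc (f : Finset V → ZMod 2) (s : Finset V) (t : Finset V) : ZMod 2 := f (s ∪ t)

/-- weight of the support on the faces with `k` elements -/
def nrm (T : Finset (Finset V)) (k : ℕ) (f : Finset V → ZMod 2) : ℕ :=
  ∑ r ∈ powersetCard k univ, if f r ≠ 0 then Wt T r else 0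

theorem Wt_mono {T : Finset (Finset V)} {s t : Finset V} (h : s ⊆ t) : Wt T t ≤ Wt T s :=
  card_le_card fun x hx => by
    rw [mem_filter] at hx ⊢
    exact ⟨hx.1, h.trans hx.2⟩

theorem Wt_empty (T : Finset (Finset V)) : Wt T ∅ = T.card := by
  simp [Wt]

/-- weights in the link -/
theorem Wt_lk (T : Finset (Finset V)) (s t : Finset V) :
    Wt (lk T s) t = if Disjoint t s then Wt T (s ∪ t) else 0 := by
  unfold Wt lk
  rw [filter_image, filter_filter]
  rw [card_image_of_injOn]
  · split_ifs with h
    · congr 1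
      ext u
      simp only [mem_filter, and_congr_right_iff]
      intro _
      constructor
      · rintro ⟨h1, h2⟩
        exact union_subset h1 (h2.trans sdiff_subset)
      · intro h1
        refine ⟨subset_union_left.trans h1, fun x hx => mem_sdiff.2 ⟨h1 (mem_union_right _ hx), ?_⟩⟩
        exact fun hxs => (disjoint_left.1 h) hx hxs
    · rw [card_eq_zero, filter_eq_empty_iff]
      rintro u _ ⟨_, h2⟩
      apply h
      rw [disjoint_left]
      exact fun x hx hxs => (mem_sdiff.1 (h2 hx)).2 hxs
  · intro u hu v hv huv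
    simp only [coe_filter, Set.mem_ofPred_eq] at hu hv
    have h1 : u = s ∪ (u \ s) := (union_sdiff_of_subset hu.2.1).symm
    have h2 : v = s ∪ (v \ s) := (union_sdiff_of_subset hv.2.1).symm
    rw [h1, h2]
    simp only at huv
    rw [huv]

theorem lk_card (T : Finset (Finset V)) (s : Finset V) : (lk T s).card = Wt T s := by
  rw [← Wt_empty, Wt_lk]
  simp

theorem lk_empty (T : Finset (Finset V)) : lk T ∅ = T := by
  unfold lk
  simp

/-- link of a link -/
theorem lk_lk (T : Finset (Finset V)) {s : Finset V} {x : V} (hx : x ∉ s) :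
    lk (lk T s) {x} = lk T (insert x s) := by
  unfold lk
  rw [filter_image, image_image, filter_filter]
  ext u
  simp only [mem_image, mem_filter, Function.comp]
  constructor
  · rintro ⟨t, ⟨ht, h1, h2⟩, rfl⟩
    refine ⟨t, ⟨ht, ?_⟩, ?_⟩
    · rw [singleton_subset_iff, mem_sdiff] at h2
      exact insert_subset h2.1 h1
    · ext y; simp only [mem_sdiff, mem_insert, mem_singleton]; tauto
  · rintro ⟨t, ⟨ht, h1⟩, rfl⟩
    refine ⟨t, ⟨ht, (subset_insert _ _).trans h1, ?_⟩, ?_⟩
    · rw [singleton_subset_iff, mem_sdiff]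
      exact ⟨h1 (mem_insert_self _ _), hx⟩
    · ext y; simp only [mem_sdiff, mem_insert, mem_singleton]; tauto

theorem lk_lk_mem (T : Finset (Finset V)) {s : Finset V} {x : V} (hx : x ∈ s) :
    lk (lk T s) {x} = ∅ := by
  rw [← card_eq_zero, lk_card, Wt_lk, if_neg]
  simpa using hx

theorem loc_empty (f : Finset V → ZMod 2) : loc f ∅ = f := by
  funext t; simp [loc]

theorem loc_loc (f : Finset V → ZMod 2) (s : Finset V) (x : V) :
    loc (loc f s) {x} = loc f (insert x s) := by
  funext t
  unfold loc
  congr 1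
  ext y; simp only [mem_union, mem_insert, mem_singleton]; tauto

theorem nrm_empty (k : ℕ) (f : Finset V → ZMod 2) : nrm (∅ : Finset (Finset V)) k f = 0 := by
  unfold nrm
  refine sum_eq_zero fun r _ => ?_
  split_ifs
  · simp [Wt]
  · rfl

/-- double counting of pairs `x ∈ s` -/
theorem sum_insert_pairs (j : ℕ) (F : Finset V → V → ℝ) :
    ∑ s ∈ powersetCard (j + 1) (univ : Finset V), ∑ x ∈ s, F (s.erase x) x =
      ∑ r ∈ powersetCard j (univ : Finset V), ∑ x, if x ∈ r then 0 else F r x := by
  have h1 : ∀ r : Finset V, (∑ x, if x ∈ r then 0 else F r x) = ∑ x ∈ rᶜ, F r x := by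
    intro r
    rw [← sum_filter_add_sum_filter_not univ (fun x => x ∈ r)]
    have e1 : ∑ x ∈ univ.filter (fun x => x ∈ r), (if x ∈ r then (0 : ℝ) else F r x) = 0 :=
      sum_eq_zero fun x hx => by rw [if_pos (mem_filter.1 hx).2]
    rw [e1, zero_add]
    refine sum_congr (by ext; simp) fun x hx => ?_
    rw [if_neg (mem_compl.1 hx)]
  simp only [h1]
  rw [sum_sigma', sum_sigma']
  refine sum_bij' (fun p _ => ⟨p.1.erase p.2, p.2⟩) (fun p _ => ⟨insert p.2 p.1, p.2⟩)
    ?_ ?_ ?_ ?_ ?_
  · rintro ⟨s, x⟩ hp
    simp only [mem_sigma, mem_powersetCard_univ] at hp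
    simp only [mem_sigma, mem_powersetCard_univ, mem_compl, mem_erase, ne_eq, not_true_eq_false,
      false_and, not_false_iff, and_true]
    rw [card_erase_of_mem hp.2, hp.1]; rfl
  · rintro ⟨s, x⟩ hp
    simp only [mem_sigma, mem_powersetCard_univ, mem_compl] at hp
    simp only [mem_sigma, mem_powersetCard_univ]
    exact ⟨by rw [card_insert_of_notMem hp.2, hp.1], mem_insert_self _ _⟩
  · rintro ⟨s, x⟩ hp
    simp only [mem_sigma, mem_powersetCard_univ] at hp
    simp only [insert_erase hp.2]
  · rintro ⟨s, x⟩ hp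
    simp only [mem_sigma, mem_powersetCard_univ, mem_compl] at hp
    simp only [erase_insert hp.2]
  · rintro ⟨s, x⟩ _
    rfl

/-- the complex is pure with top faces of `D + 1` elements -/
def Pure (D : ℕ) (T : Finset (Finset V)) : Prop := ∀ t ∈ T, t.card = D + 1

theorem Pure.lk {D : ℕ} {T : Finset (Finset V)} (h : Pure D T) {s : Finset V}
    (hs : s.card ≤ D) : Pure (D - s.card) (lk T s) := by
  intro t ht
  unfold Vale.Agent.P067A.lk at ht
  rw [mem_image] at ht
  obtain ⟨u, hu, rfl⟩ := ht
  rw [mem_filter] at hu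
  rw [card_sdiff_of_subset hu.2, h u hu.1]
  omega

/-- the step identity for the weights -/
theorem Wt_step {D : ℕ} {T : Finset (Finset V)} (h : Pure D T) (s : Finset V) :
    ∑ x, (if x ∈ s then 0 else Wt T (insert x s)) = (D + 1 - s.card) * Wt T s := by
  have e1 : ∀ x, (if x ∈ s then 0 else Wt T (insert x s)) =
      ∑ t ∈ T.filter (fun t => s ⊆ t), if x ∈ t \ s then 1 else 0 := by
    intro x
    split_ifs with hx
    · refine (sum_eq_zero fun t _ => ?_).symm
      rw [if_neg]
      exact fun h' => (mem_sdiff.1 h').2 hx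
    · unfold Wt
      rw [← sum_filter, filter_filter, sum_const, nsmul_eq_mul, mul_one, Nat.cast_id]
      congr 1
      ext t
      simp only [mem_filter, mem_sdiff, insert_subset_iff]
      tauto
  simp only [e1]
  rw [sum_comm]
  have e2 : ∀ t ∈ T.filter (fun t => s ⊆ t), ∑ x, (if x ∈ t \ s then 1 else 0) =
      D + 1 - s.card := by
    intro t ht
    rw [mem_filter] at ht
    rw [← sum_filter]
    simp only [filter_mem_eq_inter, univ_inter, sum_const, smul_eq_mul, mul_one]
    rw [card_sdiff_of_subset ht.2, h t ht.1]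
  rw [sum_congr rfl e2, sum_const, smul_eq_mul, mul_comm]
  rfl

end Vale.Agent.P067A
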